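import Vale.Agent.P146.R2.H453.Lo1
import Vale.Agent.P146.R2.H952.Jen

set_option linter.all false

/-!
# P146: the Laplace transform of a convex function of a Gaussian vector on the negative side,
in terms of the covariance of correlated copies
-/

open MeasureTheory ProbabilityTheory
open scoped ENNReal

namespace Vale.Agent.P146.R2.H453.Lo

open Vale.Agent.P146 Vale.Agent.P146.Lt Vale.Agent.P146.Ub.Cv Vale.Agent.P146.H605

section gen

variable {ι : Type} [Fintype ι]

variable {F : (ι → ℝ) → ℝ} {G : ι → (ι → ℝ) → ℝ}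

/-- the conditional mean of a convex function is convex -/
theorem cond_tangent (hF : Lin F) (hG : ∀ i, Lin (G i))
    (hconv : ∀ z w : ι → ℝ, F z + ∑ i, G i z * w i ≤ F (fun i => z i + w i))
    {t : ℝ} (h0 : 0 ≤ t) (h1 : t ≤ 1) (y z : ι → ℝ) :
    cond F t z + ∑ i, √t * cond (G i) t z * (y i - z i) ≤ cond F t y := by
  have i1 := cond_fix hF h0 h1 z
  have i2 := cond_fix hF h0 h1 y
  have i3 : ∀ i, Integrable (fun w => G i (mix (√t) (√(1 - t)) z w)) (gpi ι) := fun i =>
    cond_fix (hG i) h0 h1 z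
  have i4 : Integrable (fun w => ∑ i, G i (mix (√t) (√(1 - t)) z w) * (√t * (y i - z i)))
      (gpi ι) := integrable_finset_sum _ fun i _ => (i3 i).mul_const _
  have h2 : ∫ w, (F (mix (√t) (√(1 - t)) z w) +
      ∑ i, G i (mix (√t) (√(1 - t)) z w) * (√t * (y i - z i))) ∂(gpi ι) ≤
      ∫ w, F (mix (√t) (√(1 - t)) y w) ∂(gpi ι) := by
    refine integral_mono (i1.add i4) i2 fun w => ?_
    have h3 := hconv (mix (√t) (√(1 - t)) z w) (fun i => √t * (y i - z i))
    refine h3.trans (le_of_eq ?_)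
    congr 1
    funext i
    simp only [mix_apply]
    ring
  rw [integral_add i1 i4, integral_finset_sum _ fun i _ => (i3 i).mul_const _] at h2
  refine le_trans (le_of_eq ?_) h2
  unfold cond
  congr 1
  refine Finset.sum_congr rfl fun i _ => ?_
  rw [integral_mul_const]
  ring

/-- the start of the chain -/
theorem cl_base (hF : Lin F) (hG : ∀ i, Lin (G i))
    (hconv : ∀ z w : ι → ℝ, F z + ∑ i, G i z * w i ≤ F (fun i => z i + w i))
    {t : ℝ} (h0 : 0 ≤ t) (h1 : t ≤ 1) {x : ℝ} (hx : 0 ≤ x) :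
    Cl F G x (∫⁻ z, ENNReal.ofReal (Real.exp (-(x * cond F t z))) ∂(gpi ι)) t 0 := by
  refine ⟨fun y => ENNReal.ofReal (Real.exp (-(x * cond F t y))), fun _ => 0,
    (Real.measurable_exp.comp ((cond_meas hF t).const_mul x).neg).ennreal_ofReal, rfl,
    measurable_const, ⟨0, fun _ => by simp⟩, by simp, fun y z => ?_⟩
  refine ENNReal.ofReal_le_ofReal (Real.exp_le_exp.2 ?_)
  have h2 := mul_le_mul_of_nonneg_left (cond_tangent hF hG hconv h0 h1 y z) hx
  rw [mul_add, Finset.mul_sum] at h2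
  have h3 : ∑ i, x * (√t * cond (G i) t z * (y i - z i)) =
      ∑ i, x * √t * cond (G i) t z * (y i - z i) :=
    Finset.sum_congr rfl fun i _ => by ring
  rw [h3] at h2
  linarith

/-- **The chain.** -/
theorem laplace (hF : Lin F) (hG : ∀ i, Lin (G i)) {B : ℝ} (hB : ∀ i z, |G i z| ≤ B)
    (hconv : ∀ z w : ι → ℝ, F z + ∑ i, G i z * w i ≤ F (fun i => z i + w i))
    {K : ℝ → ℝ} {M t : ℝ} (h0 : 0 ≤ t) (h1 : t ≤ 1) {x : ℝ} (hx : 0 ≤ x)
    (hK0 : ∀ s, 0 ≤ s → s ≤ t → 0 ≤ K s)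
    (hK : ∀ s u, 0 ≤ s → s ≤ u → u ≤ t →
      (u - s) * ∑ i, ∫ z, cond (G i) s z ^ 2 ∂(gpi ι) ≤ K u - K s)
    (hM : ∑ i, ∫ z, cond (G i) t z ^ 2 ∂(gpi ι) ≤ M) :
    ∫⁻ z, ENNReal.ofReal (Real.exp (-(x * cond F t z))) ∂(gpi ι) ≤
      ENNReal.ofReal (Real.exp (-(x * ∫ z, F z ∂(gpi ι)) + x ^ 2 / 2 * K t)) := by
  set I := ∫⁻ z, ENNReal.ofReal (Real.exp (-(x * cond F t z))) ∂(gpi ι) with hI
  have hbase : Cl F G x I t 0 := cl_base hF hG hconv h0 h1 hx
  have hx2 : 0 ≤ x ^ 2 / 2 := by positivity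
  rcases h0.eq_or_lt with ht | ht
  · rw [← ht] at hbase
    refine hbase.fin.trans (ENNReal.ofReal_le_ofReal (Real.exp_le_exp.2 ?_))
    have h2 := mul_nonneg hx2 (hK0 t h0 le_rfl)
    linarith
  -- the chain with `m` steps
  have hm : ∀ m : ℕ, 1 ≤ m → ∀ k : ℕ, k + 1 ≤ m →
      Cl F G x I (t * (1 - ((k : ℝ) + 1) / m))
        (x ^ 2 / 2 * (t / m * M + K t - K (t * (1 - (k : ℝ) / m)))) := by
    intro m hm1 k
    have hm0 : (0 : ℝ) < m := by exact_mod_cast hm1
    induction k with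
    | zero =>
      intro _
      have e1 : ((0 : ℕ) : ℝ) = 0 := Nat.cast_zero
      rw [e1]
      have h3 : (0 : ℝ) < (0 + 1) / m := by positivity
      have h4 : ((0 : ℝ) + 1) / m ≤ 1 := by
        rw [zero_add, div_le_one hm0]
        exact_mod_cast hm1
      have h5 := hbase.step hF hG hB (θ' := t * (1 - ((0 : ℝ) + 1) / m))
        (mul_nonneg h0 (by linarith)) (by nlinarith) h1
      refine h5.mono ?_
      have e2 : t * (1 - (0 : ℝ) / m) = t := by simp
      have e3 : t - t * (1 - ((0 : ℝ) + 1) / m) = t / m := by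
        field_simp
        ring
      rw [e2, e3, zero_add]
      refine mul_le_mul_of_nonneg_left ?_ hx2
      have h6 := mul_le_mul_of_nonneg_left hM (by positivity : (0 : ℝ) ≤ t / m)
      linarith
    | succ k ih =>
      intro hk
      have h2 := ih (by omega)
      have hkm : (k : ℝ) + 2 ≤ m := by exact_mod_cast hk
      have e1 : ((k + 1 : ℕ) : ℝ) = (k : ℝ) + 1 := by push_cast; ring
      rw [e1]
      have h3 : (0 : ℝ) < 1 / m := by positivity
      have h4 : ((k : ℝ) + 1 + 1) / m ≤ 1 := by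
        rw [div_le_one hm0]
        linarith
      have h7 : ((k : ℝ) + 1) / m ≤ 1 := by
        rw [div_le_one hm0]
        linarith
      have h8 : (0 : ℝ) ≤ ((k : ℝ) + 1) / m := by positivity
      have h9 : (0 : ℝ) ≤ (k : ℝ) / m := by positivity
      have e2 : ((k : ℝ) + 1 + 1) / m = ((k : ℝ) + 1) / m + 1 / m := by ring
      have e3 : ((k : ℝ) + 1) / m = (k : ℝ) / m + 1 / m := by ring
      have h5 := h2.step hF hG hB (θ' := t * (1 - ((k : ℝ) + 1 + 1) / m))
        (mul_nonneg h0 (by linarith)) (by rw [e2]; nlinarith) (by nlinarith)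
      refine h5.mono ?_
      have h10 := hK (t * (1 - ((k : ℝ) + 1) / m)) (t * (1 - (k : ℝ) / m))
        (mul_nonneg h0 (by linarith)) (mul_le_mul_of_nonneg_left (by linarith) h0)
        (by nlinarith)
      have e4 : t * (1 - ((k : ℝ) + 1) / m) - t * (1 - ((k : ℝ) + 1 + 1) / m) =
          t * (1 - (k : ℝ) / m) - t * (1 - ((k : ℝ) + 1) / m) := by ring
      rw [e4, ← mul_add]
      refine mul_le_mul_of_nonneg_left ?_ hx2
      linarith
  have hfin : ∀ m : ℕ, 1 ≤ m → I ≤ ENNReal.ofReal (Real.exp (-(x * ∫ z, F z ∂(gpi ι)) +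
      x ^ 2 / 2 * (t / m * M + K t))) := by
    intro m hm1
    have hm0 : (0 : ℝ) < m := by exact_mod_cast hm1
    have h2 := hm m hm1 (m - 1) (by omega)
    have e1 : ((m - 1 : ℕ) : ℝ) = (m : ℝ) - 1 := by
      rw [Nat.cast_sub hm1, Nat.cast_one]
    have e2 : t * (1 - ((m : ℝ) - 1 + 1) / m) = 0 := by
      rw [sub_add_cancel, div_self hm0.ne', sub_self, mul_zero]
    rw [e1, e2] at h2
    refine h2.fin.trans (ENNReal.ofReal_le_ofReal (Real.exp_le_exp.2 ?_))
    have h3 : 0 ≤ ((m : ℝ) - 1) / m := div_nonneg (by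
      have : (1 : ℝ) ≤ m := by exact_mod_cast hm1
      linarith) hm0.le
    have h4 : ((m : ℝ) - 1) / m ≤ 1 := by
      rw [div_le_one hm0]
      linarith
    have h5 := hK0 (t * (1 - ((m : ℝ) - 1) / m)) (mul_nonneg h0 (by linarith)) (by nlinarith)
    have h6 := mul_nonneg hx2 h5
    have e3 : x ^ 2 / 2 * (t / m * M + K t - K (t * (1 - ((m : ℝ) - 1) / m))) =
        x ^ 2 / 2 * (t / m * M + K t) - x ^ 2 / 2 * K (t * (1 - ((m : ℝ) - 1) / m)) := by ring
    rw [e3]
    linarith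
  have hlim : Filter.Tendsto (fun m : ℕ => ENNReal.ofReal (Real.exp (-(x * ∫ z, F z ∂(gpi ι)) +
      x ^ 2 / 2 * (t / m * M + K t)))) Filter.atTop
      (nhds (ENNReal.ofReal (Real.exp (-(x * ∫ z, F z ∂(gpi ι)) +
      x ^ 2 / 2 * (0 * M + K t))))) := by
    refine (ENNReal.continuous_ofReal.tendsto _).comp ((Real.continuous_exp.tendsto _).comp ?_)
    exact tendsto_const_nhds.add (tendsto_const_nhds.mul
      (((tendsto_const_div_atTop_nhds_zero_nat t).mul_const M).add_const (K t)))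
  rw [zero_mul, zero_add] at hlim
  exact ge_of_tendsto hlim (Filter.eventually_atTop.2 ⟨1, fun m hm => hfin m hm⟩)

end gen

/-! ### The Sherrington-Kirkpatrick free energy -/

section sk

variable {n : ℕ} (β : ℝ)

theorem sk_cond (hn : 1 ≤ n) {t : ℝ} (h0 : 0 ≤ t) (h1 : t ≤ 1) {x : ℝ} (hx : 0 ≤ x) :
    ∫⁻ z, ENNReal.ofReal (Real.exp (-(x * cond (freeEnergy n β) t z))) ∂(disorder n) ≤
      ENNReal.ofReal (Real.exp (-(x * ∫ z, freeEnergy n β z ∂(disorder n)) +
        x ^ 2 / 2 * crossCov n β t)) := by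
  have hS : ∀ s, 0 ≤ s → s ≤ 1 →
      ∑ p : Pair n, ∫ z, cond (gradF n β p) s z ^ 2 ∂(gpi (Pair n)) = prof n β s :=
    fun s hs0 hs1 => sum_gradF_cm n β hn hs0 hs1
  refine laplace (F := freeEnergy n β) (G := gradF n β) (lin_freeEnergy n β) (lt_lin_grad n β)
    (reg_freeEnergy n β |>.G_bd) (tangent_freeEnergy n β) (K := crossCov n β)
    (M := prof n β 1) h0 h1 hx (fun s hs0 hs1 => crossCov_nonneg n β hs0 (hs1.trans h1))
    (fun s u hs hsu hu => ?_) ?_
  · rw [hS s hs (hsu.trans (hu.trans h1))]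
    exact crossCov_sub n β hn hs hsu (hu.trans h1)
  · rw [hS t h0 h1]
    exact prof_mono n β hn h0 h1 le_rfl

/-- **The Laplace transform of the free energy on the negative side**, through the covariance of
two correlated copies. -/
theorem sk_laplace (hn : 1 ≤ n) {t : ℝ} (h0 : 0 ≤ t) (h1 : t ≤ 1) {x : ℝ} (hx : 0 ≤ x) :
    ∫⁻ z, ENNReal.ofReal (Real.exp (-(x * freeEnergy n β z))) ∂(disorder n) ≤
      ENNReal.ofReal (Real.exp (-(x * ∫ z, freeEnergy n β z ∂(disorder n)) +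
        (x * ((1 - t) * (β ^ 2 * n / 4)) + x ^ 2 / 2 * crossCov n β t))) := by
  have h2 : ∀ z, ENNReal.ofReal (Real.exp (-(x * freeEnergy n β z))) ≤
      ENNReal.ofReal (Real.exp (x * ((1 - t) * (β ^ 2 * n / 4)))) *
        ENNReal.ofReal (Real.exp (-(x * cond (freeEnergy n β) t z))) := by
    intro z
    rw [← ENNReal.ofReal_mul (Real.exp_pos _).le, ← Real.exp_add]
    refine ENNReal.ofReal_le_ofReal (Real.exp_le_exp.2 ?_)
    have h3 : cond (freeEnergy n β) t z ≤ freeEnergy n β z + (1 - t) * β ^ 2 * n / 4 :=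
      H952.smooth_le hn β h0 h1 z
    have h4 := mul_le_mul_of_nonneg_left h3 hx
    have h5 : x * (freeEnergy n β z + (1 - t) * β ^ 2 * n / 4) =
      x * freeEnergy n β z + x * ((1 - t) * (β ^ 2 * n / 4)) := by ring
    linarith
  calc ∫⁻ z, ENNReal.ofReal (Real.exp (-(x * freeEnergy n β z))) ∂(disorder n) ≤
        ∫⁻ z, ENNReal.ofReal (Real.exp (x * ((1 - t) * (β ^ 2 * n / 4)))) *
          ENNReal.ofReal (Real.exp (-(x * cond (freeEnergy n β) t z))) ∂(disorder n) :=
        lintegral_mono h2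
    _ = ENNReal.ofReal (Real.exp (x * ((1 - t) * (β ^ 2 * n / 4)))) *
          ∫⁻ z, ENNReal.ofReal (Real.exp (-(x * cond (freeEnergy n β) t z))) ∂(disorder n) :=
        lintegral_const_mul' _ _ ENNReal.ofReal_ne_top
    _ ≤ ENNReal.ofReal (Real.exp (x * ((1 - t) * (β ^ 2 * n / 4)))) *
          ENNReal.ofReal (Real.exp (-(x * ∫ z, freeEnergy n β z ∂(disorder n)) +
            x ^ 2 / 2 * crossCov n β t)) := by
        gcongr
        exact sk_cond β hn h0 h1 hx
    _ = _ := by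
        rw [← ENNReal.ofReal_mul (Real.exp_pos _).le, ← Real.exp_add]
        congr 2
        ring

/-- the centred form -/
theorem sk_LB (hn : 1 ≤ n) {t : ℝ} (h0 : 0 ≤ t) (h1 : t ≤ 1) {x : ℝ} (hx : 0 ≤ x) :
    ∫ g, Real.exp (-(x * (freeEnergy n β g - ∫ h, freeEnergy n β h ∂(disorder n))))
        ∂(disorder n) ≤
      Real.exp (x * ((1 - t) * (β ^ 2 * n / 4)) + x ^ 2 / 2 * crossCov n β t) := by
  set E := ∫ h, freeEnergy n β h ∂(disorder n) with hE
  have h2 : ∀ g, Real.exp (-(x * (freeEnergy n β g - E))) =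
      Real.exp (x * E) * Real.exp (-(x * freeEnergy n β g)) := by
    intro g
    rw [← Real.exp_add]
    congr 1
    ring
  simp_rw [h2]
  rw [integral_const_mul]
  have h3 := sk_laplace β hn h0 h1 hx
  rw [← hE] at h3
  have h4 : ∫ g, Real.exp (-(x * freeEnergy n β g)) ∂(disorder n) ≤
      Real.exp (-(x * E) + (x * ((1 - t) * (β ^ 2 * n / 4)) + x ^ 2 / 2 * crossCov n β t)) := by
    have h5 : AEStronglyMeasurable (fun g => Real.exp (-(x * freeEnergy n β g))) (disorder n) :=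
      (Real.continuous_exp.comp
        ((lin_freeEnergy n β).cont.const_mul x).neg).aestronglyMeasurable
    rw [integral_eq_lintegral_of_nonneg_ae (Filter.Eventually.of_forall fun g =>
      (Real.exp_pos _).le) h5]
    exact ENNReal.toReal_le_of_le_ofReal (Real.exp_pos _).le h3
  calc Real.exp (x * E) * ∫ g, Real.exp (-(x * freeEnergy n β g)) ∂(disorder n) ≤
        Real.exp (x * E) * Real.exp (-(x * E) + (x * ((1 - t) * (β ^ 2 * n / 4)) +
          x ^ 2 / 2 * crossCov n β t)) := mul_le_mul_of_nonneg_left h4 (Real.exp_pos _).le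
    _ = _ := by
        rw [← Real.exp_add]
        congr 1
        ring

end sk

end Vale.Agent.P146.R2.H453.Lo
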