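import Vale.Agent.P146.R2.H453.Core

/-!
# P146: the core inequality averaged over the vertex `j`
-/

open Finset

namespace Vale.Agent.P146.H453

variable {n : ℕ}

/-- the relative size of the error at step `k` -/
noncomputable def ep (n L k : ℕ) : ℝ := Real.sqrt (L / n) + k * eta n L

lemma ep_nonneg (n L k : ℕ) : 0 ≤ ep n L k := by
  unfold ep eta
  positivity

lemma yng {θ : ℝ} (hθ : 0 < θ) (a b : ℝ) :
    (a + b) ^ 2 ≤ (1 + θ) * a ^ 2 + (1 + θ⁻¹) * b ^ 2 := by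
  have h : (1 + θ) * a ^ 2 + (1 + θ⁻¹) * b ^ 2 - (a + b) ^ 2 = θ⁻¹ * (θ * a - b) ^ 2 := by
    field_simp
    ring
  have h1 : 0 ≤ θ⁻¹ * (θ * a - b) ^ 2 := by positivity
  linarith

lemma term_le {t θ x e B : ℝ} (ht : 0 ≤ t) (hθ : 0 < θ) (hx : 0 ≤ x) (k : ℕ) :
    (Real.sqrt t ^ k * Real.sqrt x + e * B) ^ 2 ≤
      (1 + θ) * t ^ k * x + (1 + θ⁻¹) * e ^ 2 * B ^ 2 := by
  refine (yng hθ _ _).trans (le_of_eq ?_)
  rw [mul_pow, Real.sq_sqrt hx, ← pow_mul, mul_comm k 2, pow_mul, Real.sq_sqrt ht, mul_pow]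
  ring

/-- The core inequality, averaged over `j`. -/
theorem core_avg {t ρ θ : ℝ} {L : ℕ} (ht : 0 < t) (ht1 : t ≤ 1) (hρ : 1 ≤ ρ)
    (hn : (n : ℝ) ≤ ρ * ((n : ℝ) - (2 * L + 2))) (hθ : 0 < θ)
    (C : Fin n → ℕ → Fam n)
    (hC : ∀ j k, C j (k + 1) = up (C j k) + dn (C j k) - pv (C j) k)
    (hP : ∀ j, Par j (C j 0)) (hE : ∀ j, Equi {j} (C j 0))
    (G : Fin n → Fin n → Pair n → Pair n → Pair n → ℕ → Fam n)
    (hG0 : ∀ j v e₁ e₂ e₃, G j v e₁ e₂ e₃ 0 =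
      fun i α => C j 0 i (α + un e₁ + un e₂ + un e₃))
    (hG : ∀ j v e₁ e₂ e₃ k, G j v e₁ e₂ e₃ (k + 1) =
      up (G j v e₁ e₂ e₃ k) + dn (G j v e₁ e₂ e₃ k) - pv (G j v e₁ e₂ e₃) k) :
    (n : ℝ)⁻¹ * ∑ j, ns t L (C j 0) ≤ ∑ k ∈ range (L + 1), ρ ^ k *
      ((1 + θ) * t ^ k * ((n : ℝ)⁻¹ * ∑ j, nv t L (C j k) j) +
        (1 + θ⁻¹) * ep n L k ^ 2 * ∑ l ∈ range (L + 1), (n : ℝ)⁻¹ * ∑ j, ns t L (C j l) +
        1 / 6 * ((1 + θ) * t ^ k * ((n : ℝ)⁻¹ * ∑ j, ∑ v, ∑ e₁ ∈ st v, ∑ e₂ ∈ st v,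
            ∑ e₃ ∈ st v, nv t L (G j v e₁ e₂ e₃ k) v) +
          (1 + θ⁻¹) * ep n L k ^ 2 * ∑ l ∈ range (L + 1), (n : ℝ)⁻¹ * ∑ j, ∑ v,
            ∑ e₁ ∈ st v, ∑ e₂ ∈ st v, ∑ e₃ ∈ st v, ns t L (G j v e₁ e₂ e₃ l))) := by
  have hρ0 : 0 ≤ ρ := by linarith
  have hns : ∀ A : Fam n, 0 ≤ ns t L A := fun A => ns_nonneg ht.le L A
  have hnv : ∀ (A : Fam n) v, 0 ≤ nv t L A v := fun A v => nv_nonneg ht.le L A v
  -- the bounds `B` and `BG`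
  set Bs : (ℕ → Fam n) → ℝ := fun D => ∑ l ∈ range (L + 1), ns t L (D l) with hBs
  have hBs0 : ∀ D, 0 ≤ Bs D := fun D => Finset.sum_nonneg fun l _ => hns _
  have hBs1 : ∀ D : ℕ → Fam n, ∀ k ≤ L, ns t L (D k) ≤ Real.sqrt (Bs D) ^ 2 := by
    intro D k hk
    rw [Real.sq_sqrt (hBs0 D)]
    exact Finset.single_le_sum (f := fun l => ns t L (D l)) (fun l _ => hns _)
      (mem_range.2 (by omega))
  have h1 : ∀ j, ns t L (C j 0) ≤ ∑ k ∈ range (L + 1), ρ ^ k *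
      (((1 + θ) * t ^ k * nv t L (C j k) j + (1 + θ⁻¹) * ep n L k ^ 2 * Bs (C j)) +
        1 / 6 * ∑ v, ∑ e₁ ∈ st v, ∑ e₂ ∈ st v, ∑ e₃ ∈ st v,
          ((1 + θ) * t ^ k * nv t L (G j v e₁ e₂ e₃ k) v +
            (1 + θ⁻¹) * ep n L k ^ 2 * Bs (G j v e₁ e₂ e₃))) := by
    intro j
    refine (core n j t ρ L ht ht1 hρ hn (C j) (hC j) (hP j) (hE j) (G j) (hG0 j) (hG j)
      (Real.sqrt (Bs (C j))) (fun v e₁ e₂ e₃ => Real.sqrt (Bs (G j v e₁ e₂ e₃)))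
      (Real.sqrt_nonneg _) (fun _ _ _ _ => Real.sqrt_nonneg _) (hBs1 _)
      (fun v e₁ e₂ e₃ => hBs1 _)).trans ?_
    refine Finset.sum_le_sum fun k _ => mul_le_mul_of_nonneg_left ?_ (pow_nonneg hρ0 k)
    refine add_le_add ?_ (mul_le_mul_of_nonneg_left ?_ (by norm_num))
    · refine (term_le ht.le hθ (hnv _ _) k).trans (le_of_eq ?_)
      rw [Real.sq_sqrt (hBs0 _)]
      rfl
    · have h2 : ∀ v, ∑ e₁ ∈ st v, ∑ e₂ ∈ st v, ∑ e₃ ∈ st v,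
          (Real.sqrt t ^ k * Real.sqrt (nv t L (G j v e₁ e₂ e₃ k) v) +
            (Real.sqrt (L / n) + k * eta n L) * Real.sqrt (Bs (G j v e₁ e₂ e₃))) ^ 2 ≤
          ∑ e₁ ∈ st v, ∑ e₂ ∈ st v, ∑ e₃ ∈ st v,
          ((1 + θ) * t ^ k * nv t L (G j v e₁ e₂ e₃ k) v +
            (1 + θ⁻¹) * ep n L k ^ 2 * Bs (G j v e₁ e₂ e₃)) := by
        intro v
        refine Finset.sum_le_sum fun e₁ _ => Finset.sum_le_sum fun e₂ _ =>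
          Finset.sum_le_sum fun e₃ _ => ?_
        refine (term_le ht.le hθ (hnv _ _) k).trans (le_of_eq ?_)
        rw [Real.sq_sqrt (hBs0 _)]
        rfl
      refine le_trans (sum_le_sum_of_subset_of_nonneg (erase_subset _ _) fun v _ _ => ?_)
        (Finset.sum_le_sum fun v _ => h2 v)
      exact Finset.sum_nonneg fun _ _ => Finset.sum_nonneg fun _ _ =>
        Finset.sum_nonneg fun _ _ => sq_nonneg _
  have h2 : (n : ℝ)⁻¹ * ∑ j, ns t L (C j 0) ≤ (n : ℝ)⁻¹ * ∑ j : Fin n,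
      ∑ k ∈ range (L + 1), ρ ^ k *
      (((1 + θ) * t ^ k * nv t L (C j k) j + (1 + θ⁻¹) * ep n L k ^ 2 * Bs (C j)) +
        1 / 6 * ∑ v, ∑ e₁ ∈ st v, ∑ e₂ ∈ st v, ∑ e₃ ∈ st v,
          ((1 + θ) * t ^ k * nv t L (G j v e₁ e₂ e₃ k) v +
            (1 + θ⁻¹) * ep n L k ^ 2 * Bs (G j v e₁ e₂ e₃))) :=
    mul_le_mul_of_nonneg_left (Finset.sum_le_sum fun j _ => h1 j) (by positivity)
  refine h2.trans (le_of_eq ?_)
  rw [Finset.sum_comm, Finset.mul_sum]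
  refine Finset.sum_congr rfl fun k _ => ?_
  have e1 : ∑ l ∈ range (L + 1), (n : ℝ)⁻¹ * ∑ j, ns t L (C j l) =
      (n : ℝ)⁻¹ * ∑ j, Bs (C j) := by
    rw [← Finset.mul_sum, Finset.sum_comm]
  have e2 : ∑ l ∈ range (L + 1), (n : ℝ)⁻¹ * ∑ j, ∑ v,
      ∑ e₁ ∈ st v, ∑ e₂ ∈ st v, ∑ e₃ ∈ st v, ns t L (G j v e₁ e₂ e₃ l) =
      (n : ℝ)⁻¹ * ∑ j, ∑ v, ∑ e₁ ∈ st v, ∑ e₂ ∈ st v, ∑ e₃ ∈ st v, Bs (G j v e₁ e₂ e₃) := by
    rw [← Finset.mul_sum, Finset.sum_comm]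
    congr 1
    refine Finset.sum_congr rfl fun j _ => ?_
    rw [Finset.sum_comm]
    refine Finset.sum_congr rfl fun v _ => ?_
    rw [Finset.sum_comm]
    refine Finset.sum_congr rfl fun e₁ _ => ?_
    rw [Finset.sum_comm]
    refine Finset.sum_congr rfl fun e₂ _ => ?_
    rw [Finset.sum_comm]
  rw [e1, e2]
  simp only [Finset.sum_add_distrib, ← Finset.mul_sum]
  ring

end Vale.Agent.P146.H453
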