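import Vale.Agent.P146.Defs

/-!
# P146: combinatorial core of the path expansion (multi-indices on the pairs `i < j`)
-/

open Finset

namespace Vale.Agent.P146.H453

variable {n : ℕ}

/-- multi-indices on the pairs -/
abbrev MI (n : ℕ) : Type := Pair n → ℕ

/-- the pairs containing the vertex `v` -/
def st (v : Fin n) : Finset (Pair n) := univ.filter fun e => e.1.1 = v ∨ e.1.2 = v

/-- the other endpoint of a pair -/
def ot (v : Fin n) (e : Pair n) : Fin n := if e.1.1 = v then e.1.2 else e.1.1

lemma mem_st {v : Fin n} {e : Pair n} : e ∈ st v ↔ e.1.1 = v ∨ e.1.2 = v := by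
  simp [st]

lemma ot_ne (v : Fin n) (e : Pair n) : ot v e ≠ v := by
  have h2 := e.2
  unfold ot
  split_ifs with h1
  · intro h3
    rw [h1, h3] at h2
    exact lt_irrefl _ h2
  · exact h1

lemma st_ot (v : Fin n) (e : Pair n) : e ∈ st (ot v e) := by
  rw [mem_st]
  unfold ot
  split_ifs with h1
  · exact Or.inr rfl
  · exact Or.inl rfl

lemma ot_ot {v : Fin n} {e : Pair n} (h : e ∈ st v) : ot (ot v e) e = v := by
  rw [mem_st] at h
  have h2 := e.2
  unfold ot
  by_cases h1 : e.1.1 = v
  · rw [if_pos h1]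
    rw [if_neg, h1]
    intro h3
    rw [h3] at h2
    exact lt_irrefl _ h2
  · rw [if_neg h1, if_pos rfl]
    rcases h with h | h
    · exact absurd h h1
    · exact h

lemma ot_inj {v : Fin n} {e e' : Pair n} (h : e ∈ st v) (h' : e' ∈ st v)
    (he : ot v e = ot v e') : e = e' := by
  rw [mem_st] at h h'
  have h2 := e.2
  have h3 := e'.2
  apply Subtype.ext
  unfold ot at he
  by_cases h1 : e.1.1 = v <;> by_cases h1' : e'.1.1 = v
  · rw [if_pos h1, if_pos h1'] at he
    exact Prod.ext (h1.trans h1'.symm) he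
  · rw [if_pos h1, if_neg h1'] at he
    have h4 : e'.1.2 = v := h'.resolve_left h1'
    rw [h1, he] at h2
    rw [h4] at h3
    exact absurd (h2.trans h3) (lt_irrefl _)
  · rw [if_neg h1, if_pos h1'] at he
    have h4 : e.1.2 = v := h.resolve_left h1
    rw [h1', ← he] at h3
    rw [h4] at h2
    exact absurd (h2.trans h3) (lt_irrefl _)
  · rw [if_neg h1, if_neg h1'] at he
    exact Prod.ext he ((h.resolve_left h1).trans (h'.resolve_left h1').symm)

lemma ot_surj {v i : Fin n} (h : i ≠ v) : ∃ e ∈ st v, ot v e = i := by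
  rcases lt_or_gt_of_ne h with h1 | h1
  · refine ⟨⟨(i, v), h1⟩, mem_st.2 (Or.inr rfl), ?_⟩
    unfold ot
    rw [if_neg]
    exact h
  · refine ⟨⟨(v, i), h1⟩, mem_st.2 (Or.inl rfl), ?_⟩
    unfold ot
    rw [if_pos rfl]

/-- the degree of a vertex -/
def deg (α : MI n) (v : Fin n) : ℕ := ∑ e ∈ st v, α e

/-- total degree -/
def tot (α : MI n) : ℕ := ∑ e, α e

/-- the unit multi-index -/
def un (e : Pair n) : MI n := Pi.single e 1

lemma un_self (e : Pair n) : un e e = 1 := by simp [un]

lemma un_ne {e e' : Pair n} (h : e' ≠ e) : un e e' = 0 := by simp [un, h]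

lemma add_un_sub (α : MI n) (e : Pair n) : α + un e - un e = α := by
  funext x
  simp

lemma deg_le (α : MI n) (v : Fin n) : deg α v ≤ tot α :=
  sum_le_sum_of_subset (subset_univ _)

lemma deg_un_of_mem {v : Fin n} {e : Pair n} (h : e ∈ st v) : deg (un e) v = 1 := by
  unfold deg
  rw [Finset.sum_eq_single e]
  · exact un_self e
  · intro b _ hb
    exact un_ne hb
  · intro h'
    exact absurd h h'

lemma deg_un_of_not_mem {v : Fin n} {e : Pair n} (h : e ∉ st v) : deg (un e) v = 0 := by
  unfold deg
  apply Finset.sum_eq_zero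
  intro b hb
  apply un_ne
  rintro rfl
  exact h hb

lemma deg_add (α β : MI n) (v : Fin n) : deg (α + β) v = deg α v + deg β v := by
  unfold deg
  rw [← Finset.sum_add_distrib]
  rfl

lemma tot_add (α β : MI n) : tot (α + β) = tot α + tot β := by
  unfold tot
  rw [← Finset.sum_add_distrib]
  rfl

lemma tot_un (e : Pair n) : tot (un e) = 1 := by
  unfold tot un
  rw [Finset.sum_eq_single e]
  · simp
  · intro b _ hb
    simp [hb]
  · intro h
    exact absurd (mem_univ _) h

lemma deg_zero_iff (α : MI n) (v : Fin n) : deg α v = 0 ↔ ∀ e ∈ st v, α e = 0 := by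
  unfold deg
  exact Finset.sum_eq_zero_iff

/-- multi-indices of total degree at most `L` -/
def ML (n L : ℕ) : Finset (MI n) :=
  (Fintype.piFinset fun _ : Pair n => range (L + 1)).filter fun α => tot α ≤ L

lemma mem_ML {L : ℕ} {α : MI n} : α ∈ ML n L ↔ tot α ≤ L := by
  unfold ML
  rw [mem_filter, and_iff_right_iff_imp]
  intro h
  rw [Fintype.mem_piFinset]
  intro e
  rw [mem_range]
  have : α e ≤ tot α := single_le_sum (f := fun e => α e) (fun _ _ => Nat.zero_le _) (mem_univ e)
  omega

lemma ML_mono {L M : ℕ} (h : L ≤ M) : ML n L ⊆ ML n M := by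
  intro α
  rw [mem_ML, mem_ML]
  omega

/-- the weight `t^|α| / α!` -/
noncomputable def wt (t : ℝ) (α : MI n) : ℝ := t ^ tot α / ∏ e, ((α e).factorial : ℝ)

lemma wt_nonneg {t : ℝ} (ht : 0 ≤ t) (α : MI n) : 0 ≤ wt t α := by
  unfold wt
  positivity

lemma wt_add_un (t : ℝ) (α : MI n) (e : Pair n) :
    wt t (α + un e) * ((α e : ℝ) + 1) = t * wt t α := by
  unfold wt
  have h1 : tot (α + un e) = tot α + 1 := by rw [tot_add, tot_un]
  have h2 : ∏ x, (((α + un e) x).factorial : ℝ) = (∏ x, ((α x).factorial : ℝ)) * ((α e : ℝ) + 1) := by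
    have h3 : ∀ x, (((α + un e) x).factorial : ℝ) =
        ((α x).factorial : ℝ) * (if x = e then ((α e : ℝ) + 1) else 1) := by
      intro x
      by_cases hx : x = e
      · subst hx
        rw [if_pos rfl, Pi.add_apply, un_self, Nat.factorial_succ]
        push_cast
        ring
      · rw [if_neg hx, Pi.add_apply, un_ne hx, add_zero, mul_one]
    rw [Finset.prod_congr rfl fun x _ => h3 x, Finset.prod_mul_distrib]
    congr 1
    rw [Finset.prod_ite_eq' univ e (fun _ => (α e : ℝ) + 1)]
    simp
  rw [h1, h2, pow_succ]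
  have h4 : (0 : ℝ) < ∏ x, ((α x).factorial : ℝ) := by positivity
  have h5 : (0 : ℝ) < (α e : ℝ) + 1 := by positivity
  field_simp

/-- change of variables `β = α + e` -/
lemma cv (t : ℝ) (L : ℕ) (e : Pair n) (H : MI n → ℝ) :
    t * ∑ α ∈ ML n L, wt t α * H (α + un e) = ∑ β ∈ ML n (L + 1), wt t β * β e * H β := by
  have h1 : ∑ β ∈ ML n (L + 1), wt t β * β e * H β =
      ∑ β ∈ (ML n (L + 1)).filter (fun β => 1 ≤ β e), wt t β * β e * H β := by
    rw [Finset.sum_filter]
    refine Finset.sum_congr rfl fun β _ => ?_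
    split_ifs with h
    · rfl
    · have : β e = 0 := by omega
      rw [this]
      simp
  rw [h1, Finset.mul_sum]
  symm
  refine Finset.sum_nbij' (fun β => β - un e) (fun α => α + un e) ?_ ?_ ?_ ?_ ?_
  · intro β hβ
    rw [mem_filter, mem_ML] at hβ
    have h2 : β - un e + un e = β := by
      funext x
      by_cases hx : x = e
      · subst hx
        simp only [Pi.add_apply, Pi.sub_apply, un_self]
        omega
      · simp [un_ne hx]
    have h3 : tot (β - un e) + 1 = tot β := by
      rw [← tot_un e, ← tot_add, h2]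
    rw [mem_ML]
    omega
  · intro α hα
    rw [mem_ML] at hα
    rw [mem_filter, mem_ML, tot_add, tot_un, Pi.add_apply, un_self]
    omega
  · intro β hβ
    rw [mem_filter] at hβ
    funext x
    by_cases hx : x = e
    · subst hx
      simp only [Pi.add_apply, Pi.sub_apply, un_self]
      omega
    · simp [un_ne hx]
  · intro α _
    exact add_un_sub α e
  · intro β hβ
    rw [mem_filter] at hβ
    have h2 : β - un e + un e = β := by
      funext x
      by_cases hx : x = e
      · subst hx
        simp only [Pi.add_apply, Pi.sub_apply, un_self]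
        omega
      · simp [un_ne hx]
    have h3 := wt_add_un t (β - un e) e
    rw [h2] at h3
    have h4 : (((β - un e) e : ℕ) : ℝ) + 1 = β e := by
      have : (β - un e) e + 1 = β e := by
        simp only [Pi.sub_apply, un_self]
        omega
      exact_mod_cast this
    rw [h4] at h3
    rw [h2, h3]
    ring

lemma cv_le {t : ℝ} (ht : 0 ≤ t) (L : ℕ) (e : Pair n) {H : MI n → ℝ} (hH : ∀ β, 0 ≤ H β) :
    ∑ β ∈ ML n L, wt t β * β e * H β ≤ t * ∑ α ∈ ML n L, wt t α * H (α + un e) := by
  rw [cv]
  refine sum_le_sum_of_subset_of_nonneg (ML_mono (Nat.le_succ L)) fun β _ _ => ?_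
  have := wt_nonneg ht β
  have := hH β
  positivity

end Vale.Agent.P146.H453
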