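import Vale.Agent.P146.R2.H453.Norm

/-!
# P146: the error of the path formula
-/

open Finset

namespace Vale.Agent.P146.H453

variable {n : ℕ}

lemma ns_zero (t : ℝ) (L : ℕ) : ns t L (0 : Fam n) = 0 := by
  unfold ns nv
  simp

lemma pv_ns {t : ℝ} {L : ℕ} {C : ℕ → Fam n} {B : ℝ}
    (hB : ∀ k ≤ L, ns t L (C k) ≤ B ^ 2) {k : ℕ} (hk : k ≤ L) :
    ns t L (pv C k) ≤ B ^ 2 := by
  cases k with
  | zero =>
    rw [pv, ns_zero]
    positivity
  | succ k => exact hB k (by omega)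

/-- the last term of `er` -/
noncomputable def lt (Q : Finset (Fin n)) (A : Fam n) : Fam n :=
  fun v α => (1 - ((fs Q v α).card : ℝ) / n) * A v α

lemma lt_norm {t : ℝ} (ht : 0 ≤ t) {M L : ℕ} (hM : M ≤ L) {Q : Finset (Fin n)} (hQ : Q.card ≤ 5)
    (A : Fam n) : ns t M (lt Q A) ≤ ((2 * L + 6) / n : ℝ) ^ 2 * ns t L A := by
  refine le_trans ?_ (mul_le_mul_of_nonneg_left (ns_mono ht hM A) (sq_nonneg _))
  unfold ns nv
  rw [Finset.mul_sum]
  refine Finset.sum_le_sum fun v _ => ?_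
  rw [Finset.mul_sum]
  refine Finset.sum_le_sum fun α hα => ?_
  rw [mem_ML] at hα
  have hn : 0 < n := lt_of_le_of_lt (Nat.zero_le _) v.2
  have hn' : (0 : ℝ) < n := by exact_mod_cast hn
  have h1 := card_fs Q v α
  have h2 : n ≤ (fs Q v α).card + (2 * L + 6) := by omega
  have h3 : (n : ℝ) ≤ (fs Q v α).card + (2 * L + 6) := by exact_mod_cast h2
  have h4 : ((fs Q v α).card : ℝ) ≤ n := by
    exact_mod_cast (Finset.card_le_card (fs_sub Q v α)).trans (card_st_le v)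
  have h5 : 0 ≤ 1 - ((fs Q v α).card : ℝ) / n := by
    rw [sub_nonneg, div_le_one hn']
    exact h4
  have h6 : 1 - ((fs Q v α).card : ℝ) / n ≤ (2 * L + 6) / n := by
    rw [sub_le_iff_le_add, ← add_div, le_div_iff₀ hn']
    linarith
  have h7 : (1 - ((fs Q v α).card : ℝ) / n) ^ 2 ≤ ((2 * L + 6) / n : ℝ) ^ 2 :=
    pow_le_pow_left₀ h5 h6 2
  have h8 : 0 ≤ wt t α * A v α ^ 2 := mul_nonneg (wt_nonneg ht α) (sq_nonneg _)
  calc wt t α * lt Q A v α ^ 2 = (1 - ((fs Q v α).card : ℝ) / n) ^ 2 * (wt t α * A v α ^ 2) := by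
        unfold lt
        ring
    _ ≤ ((2 * L + 6) / n : ℝ) ^ 2 * (wt t α * A v α ^ 2) := mul_le_mul_of_nonneg_right h7 h8

lemma er_succ (Q : Finset (Fin n)) (C : ℕ → Fam n) (k : ℕ) :
    er Q C (k + 1) = fr Q (er Q C k) - nf Q (C k) + lt Q (pv C k) := rfl

lemma sqrt_sq_le {x B : ℝ} (hB : 0 ≤ B) (h : x ≤ B ^ 2) : Real.sqrt x ≤ B :=
  (Real.sqrt_le_sqrt h).trans (by rw [Real.sqrt_sq hB])

theorem er_norm {t : ℝ} (ht : 0 < t) (ht1 : t ≤ 1) {Q : Finset (Fin n)} (hQ : Q.card ≤ 5)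
    {C : ℕ → Fam n} {B : ℝ} (hB0 : 0 ≤ B) {L : ℕ} (hB : ∀ k ≤ L, ns t L (C k) ≤ B ^ 2) :
    ∀ k M : ℕ, M + k ≤ L →
      Real.sqrt t ^ k * Real.sqrt (ns t M (er Q C k)) ≤ k * eta n L * B := by
  have hs0 : 0 ≤ Real.sqrt t := Real.sqrt_nonneg t
  have hs1 : Real.sqrt t ≤ 1 := Real.sqrt_le_one.2 ht1
  intro k
  induction k with
  | zero =>
    intro M _
    have : er Q C 0 = 0 := rfl
    rw [this, ns_zero]
    simp
  | succ k ih =>
    intro M hM
    have ih1 := ih (M + 1) (by omega)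
    have hkL : k ≤ L := by omega
    -- the three parts
    have a1 : Real.sqrt t * Real.sqrt (ns t M (fr Q (er Q C k))) ≤
        Real.sqrt (ns t (M + 1) (er Q C k)) := by
      rw [← Real.sqrt_mul ht.le]
      exact Real.sqrt_le_sqrt (fr_norm ht.le M Q _)
    have a2 : Real.sqrt t * Real.sqrt (ns t M (nf Q (C k))) ≤
        Real.sqrt ((2 * L + 5) * (L + 1) / n) * B := by
      rw [← Real.sqrt_mul ht.le]
      have h1 := nf_norm ht.le M Q (C k)
      have h2 : ns t (M + 1) (C k) ≤ B ^ 2 := (ns_mono ht.le (by omega) _).trans (hB k hkL)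
      have h3 : ((2 * M + Q.card) * (M + 1) / n : ℝ) ≤ (2 * L + 5) * (L + 1) / n := by
        have h4 : (M : ℝ) ≤ L := by
          have : M ≤ L := by omega
          exact_mod_cast this
        have h5 : (Q.card : ℝ) ≤ 5 := by exact_mod_cast hQ
        gcongr
      have h6 : t * ns t M (nf Q (C k)) ≤ ((2 * L + 5) * (L + 1) / n : ℝ) * B ^ 2 := by
        refine h1.trans ?_
        have h7 : (0 : ℝ) ≤ (2 * L + 5) * (L + 1) / n := by positivity
        exact mul_le_mul h3 h2 (ns_nonneg ht.le _ _) h7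
      calc Real.sqrt (t * ns t M (nf Q (C k))) ≤
            Real.sqrt (((2 * L + 5) * (L + 1) / n : ℝ) * B ^ 2) := Real.sqrt_le_sqrt h6
        _ = Real.sqrt ((2 * L + 5) * (L + 1) / n) * B := by
            rw [Real.sqrt_mul (by positivity), Real.sqrt_sq hB0]
    have a3 : Real.sqrt (ns t M (lt Q (pv C k))) ≤ (2 * L + 6) / n * B := by
      have h1 := lt_norm ht.le (M := M) (L := L) (by omega) hQ (pv C k)
      have h2 := pv_ns hB hkL
      have h3 : ns t M (lt Q (pv C k)) ≤ ((2 * L + 6) / n * B) ^ 2 := by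
        refine h1.trans ?_
        rw [mul_pow]
        exact mul_le_mul_of_nonneg_left h2 (sq_nonneg _)
      exact sqrt_sq_le (by positivity) h3
    have a4 : Real.sqrt (ns t M (er Q C (k + 1))) ≤
        Real.sqrt (ns t M (fr Q (er Q C k))) + Real.sqrt (ns t M (nf Q (C k))) +
          Real.sqrt (ns t M (lt Q (pv C k))) := by
      rw [er_succ]
      refine (sqrt_ns_add ht.le M _ _).trans ?_
      have := sqrt_ns_sub ht.le M (fr Q (er Q C k)) (nf Q (C k))
      linarith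
    have a5 : Real.sqrt t * Real.sqrt (ns t M (er Q C (k + 1))) ≤
        Real.sqrt (ns t (M + 1) (er Q C k)) + eta n L * B := by
      have h0 := Real.sqrt_nonneg (ns t M (lt Q (pv C k)))
      have h1 : Real.sqrt t * Real.sqrt (ns t M (lt Q (pv C k))) ≤
          Real.sqrt (ns t M (lt Q (pv C k))) := by nlinarith
      have h2 := mul_le_mul_of_nonneg_left a4 hs0
      unfold eta
      nlinarith
    have hk0 : 0 ≤ Real.sqrt t ^ k := pow_nonneg hs0 k
    have hk1 : Real.sqrt t ^ k ≤ 1 := pow_le_one₀ hs0 hs1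
    have he : 0 ≤ eta n L * B := by
      unfold eta
      positivity
    calc Real.sqrt t ^ (k + 1) * Real.sqrt (ns t M (er Q C (k + 1)))
        = Real.sqrt t ^ k * (Real.sqrt t * Real.sqrt (ns t M (er Q C (k + 1)))) := by ring
      _ ≤ Real.sqrt t ^ k * (Real.sqrt (ns t (M + 1) (er Q C k)) + eta n L * B) :=
          mul_le_mul_of_nonneg_left a5 hk0
      _ = Real.sqrt t ^ k * Real.sqrt (ns t (M + 1) (er Q C k)) +
            Real.sqrt t ^ k * (eta n L * B) := by ring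
      _ ≤ k * eta n L * B + 1 * (eta n L * B) :=
          add_le_add ih1 (mul_le_mul_of_nonneg_right hk1 he)
      _ = ((k + 1 : ℕ) : ℝ) * eta n L * B := by push_cast; ring

/-- the size of the iterated fresh sums at one vertex -/
theorem fk_nv {t : ℝ} (ht : 0 < t) (ht1 : t ≤ 1) {Q : Finset (Fin n)} (hQ : Q.card ≤ 5)
    {C : ℕ → Fam n} (hC : ∀ k, C (k + 1) = up (C k) + dn (C k) - pv C k)
    {B : ℝ} (hB0 : 0 ≤ B) {L : ℕ} (hB : ∀ k ≤ L, ns t L (C k) ≤ B ^ 2)
    {k M : ℕ} (h : M + k ≤ L) (v : Fin n) :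
    Real.sqrt t ^ k * Real.sqrt (nv t M (fk Q (C 0) k) v) ≤
      Real.sqrt t ^ k * Real.sqrt (nv t L (C k) v) + (Real.sqrt (L / n) + k * eta n L) * B := by
  have hs0 : 0 ≤ Real.sqrt t := Real.sqrt_nonneg t
  have hs1 : Real.sqrt t ≤ 1 := Real.sqrt_le_one.2 ht1
  have hk0 : 0 ≤ Real.sqrt t ^ k := pow_nonneg hs0 k
  have hk1 : Real.sqrt t ^ k ≤ 1 := pow_le_one₀ hs0 hs1
  rw [path_formula Q C hC k]
  have h1 : Real.sqrt (nv t M (C k - dn (pv C k) + er Q C k) v) ≤
      Real.sqrt (nv t M (C k) v) + Real.sqrt (nv t M (dn (pv C k)) v) +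
        Real.sqrt (nv t M (er Q C k) v) := by
    refine (sqrt_nv_add ht.le M _ _ v).trans ?_
    have := sqrt_nv_sub ht.le M (C k) (dn (pv C k)) v
    linarith
  have h2 : Real.sqrt (nv t M (C k) v) ≤ Real.sqrt (nv t L (C k) v) :=
    Real.sqrt_le_sqrt (nv_mono ht.le (by omega) _ _)
  have h3 : Real.sqrt (nv t M (dn (pv C k)) v) ≤ Real.sqrt (L / n) * B := by
    have h4 : nv t M (dn (pv C k)) v ≤ (L / n : ℝ) * B ^ 2 := by
      calc nv t M (dn (pv C k)) v ≤ nv t L (dn (pv C k)) v := nv_mono ht.le (by omega) _ _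
        _ ≤ (t * L / n : ℝ) * ns t L (pv C k) := dn_norm ht.le L _ v
        _ ≤ (L / n : ℝ) * B ^ 2 := by
            have h5 : (t * L / n : ℝ) ≤ L / n := by
              have h6 : (0 : ℝ) ≤ (L : ℝ) / n := by positivity
              calc (t * L / n : ℝ) = t * (L / n) := by ring
                _ ≤ 1 * (L / n) := mul_le_mul_of_nonneg_right ht1 h6
                _ = L / n := one_mul _
            exact mul_le_mul h5 (pv_ns hB (by omega)) (ns_nonneg ht.le _ _) (by positivity)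
    calc Real.sqrt (nv t M (dn (pv C k)) v) ≤ Real.sqrt ((L / n : ℝ) * B ^ 2) :=
          Real.sqrt_le_sqrt h4
      _ = Real.sqrt (L / n) * B := by rw [Real.sqrt_mul (by positivity), Real.sqrt_sq hB0]
  have h7 : Real.sqrt t ^ k * Real.sqrt (nv t M (er Q C k) v) ≤ k * eta n L * B := by
    refine le_trans ?_ (er_norm ht ht1 hQ hB0 hB k M h)
    exact mul_le_mul_of_nonneg_left (Real.sqrt_le_sqrt (nv_le_ns ht.le M _ v)) hk0
  have h8 : 0 ≤ Real.sqrt (L / n) * B := by positivity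
  have h9 : Real.sqrt t ^ k * Real.sqrt (nv t M (dn (pv C k)) v) ≤ Real.sqrt (L / n) * B := by
    calc Real.sqrt t ^ k * Real.sqrt (nv t M (dn (pv C k)) v)
        ≤ 1 * Real.sqrt (nv t M (dn (pv C k)) v) :=
          mul_le_mul_of_nonneg_right hk1 (Real.sqrt_nonneg _)
      _ ≤ Real.sqrt (L / n) * B := by rw [one_mul]; exact h3
  have h10 := mul_le_mul_of_nonneg_left h1 hk0
  have h11 := mul_le_mul_of_nonneg_left h2 hk0
  linarith [h10, h11, h9, h7]

end Vale.Agent.P146.H453
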