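import Vale.Agent.P146.R2.H453.Star
import Vale.Agent.P146.R2.H453.Err

/-!
# P146: proof of the combinatorial core
-/

open Finset

namespace Vale.Agent.P146.H453

variable {n : ℕ}

theorem core : CoreStmt := by
  intro n j t ρ L ht ht1 hρ hn C hC hP hE G hG0 hG B BG hB0 hBG0 hB hBG
  have hs0 : 0 ≤ Real.sqrt t := Real.sqrt_nonneg t
  have hρ0 : 0 ≤ ρ := by linarith
  refine (peel_main ht.le hρ hn L le_rfl (C 0) hP hE).trans ?_
  refine Finset.sum_le_sum fun k hk => ?_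
  rw [mem_range] at hk
  have hkL : L - k + k ≤ L := by omega
  have e1 : (t * ρ) ^ k = ρ ^ k * (Real.sqrt t ^ k) ^ 2 := by
    rw [mul_pow, ← pow_mul, mul_comm k 2, pow_mul, Real.sq_sqrt ht.le, mul_comm]
  rw [e1, mul_assoc]
  refine mul_le_mul_of_nonneg_left ?_ (pow_nonneg hρ0 k)
  unfold sn
  rw [mul_add]
  have key : ∀ {x b : ℝ}, 0 ≤ x → Real.sqrt t ^ k * Real.sqrt x ≤ b →
      (Real.sqrt t ^ k) ^ 2 * x ≤ b ^ 2 := by
    intro x b hx h
    have h0 : 0 ≤ Real.sqrt t ^ k * Real.sqrt x := by positivity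
    calc (Real.sqrt t ^ k) ^ 2 * x = (Real.sqrt t ^ k * Real.sqrt x) ^ 2 := by
          rw [mul_pow, Real.sq_sqrt hx]
      _ ≤ b ^ 2 := pow_le_pow_left₀ h0 h 2
  refine add_le_add ?_ ?_
  · exact key (nv_nonneg ht.le _ _ _)
      (fk_nv ht ht1 (by rw [card_singleton]; omega) hC hB0 hB hkL j)
  · rw [Finset.mul_sum, Finset.mul_sum]
    refine Finset.sum_le_sum fun v _ => ?_
    have h1 := three ht.le (L - k) v (fk {j} (C 0) k)
    have h2 : ∀ e₁ ∈ st v, ∀ e₂ ∈ st v, ∀ e₃ ∈ st v,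
        (Real.sqrt t ^ k) ^ 2 * ∑ α ∈ ML n (L - k), wt t α *
          fk {j} (C 0) k v (α + un e₁ + un e₂ + un e₃) ^ 2 ≤
        (Real.sqrt t ^ k * Real.sqrt (nv t L (G v e₁ e₂ e₃ k) v) +
          (Real.sqrt (L / n) + k * eta n L) * BG v e₁ e₂ e₃) ^ 2 := by
      intro e₁ h₁ e₂ h₂ e₃ h₃
      have h3 : ∑ α ∈ ML n (L - k), wt t α *
          fk {j} (C 0) k v (α + un e₁ + un e₂ + un e₃) ^ 2 =
          nv t (L - k) (fk ({j} ∪ vs (un e₁ + un e₂ + un e₃)) (G v e₁ e₂ e₃ 0) k) v := by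
        have h4 : G v e₁ e₂ e₃ 0 = sh (un e₁ + un e₂ + un e₃) (C 0) := by
          rw [hG0]
          funext i α
          unfold sh
          rw [← add_assoc, ← add_assoc]
        rw [h4, ← fk_shift]
        unfold nv sh
        refine Finset.sum_congr rfl fun α _ => ?_
        rw [← add_assoc, ← add_assoc]
      rw [h3]
      exact key (nv_nonneg ht.le _ _ _)
        (fk_nv ht ht1 (card_vs3 h₁ h₂ h₃ j) (hG v e₁ e₂ e₃) (hBG0 v e₁ e₂ e₃)
          (hBG v e₁ e₂ e₃) hkL v)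
    have h5 : t ^ 3 / 6 ≤ 1 / 6 := by
      have := pow_le_one₀ (n := 3) ht.le ht1
      linarith
    have h6 : (0 : ℝ) ≤ ∑ e₁ ∈ st v, ∑ e₂ ∈ st v, ∑ e₃ ∈ st v,
        ∑ α ∈ ML n (L - k), wt t α *
          fk {j} (C 0) k v (α + un e₁ + un e₂ + un e₃) ^ 2 :=
      Finset.sum_nonneg fun _ _ => Finset.sum_nonneg fun _ _ => Finset.sum_nonneg fun _ _ =>
        Finset.sum_nonneg fun α _ => mul_nonneg (wt_nonneg ht.le α) (sq_nonneg _)
    have h7 : (Real.sqrt t ^ k) ^ 2 * n3 t (L - k) (fk {j} (C 0) k) v ≤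
        1 / 6 * ((Real.sqrt t ^ k) ^ 2 * ∑ e₁ ∈ st v, ∑ e₂ ∈ st v, ∑ e₃ ∈ st v,
          ∑ α ∈ ML n (L - k), wt t α *
            fk {j} (C 0) k v (α + un e₁ + un e₂ + un e₃) ^ 2) := by
      calc (Real.sqrt t ^ k) ^ 2 * n3 t (L - k) (fk {j} (C 0) k) v ≤
          (Real.sqrt t ^ k) ^ 2 * (1 / 6 * ∑ e₁ ∈ st v, ∑ e₂ ∈ st v, ∑ e₃ ∈ st v,
            ∑ α ∈ ML n (L - k), wt t α *
              fk {j} (C 0) k v (α + un e₁ + un e₂ + un e₃) ^ 2) :=
            mul_le_mul_of_nonneg_left (h1.trans (mul_le_mul_of_nonneg_right h5 h6))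
              (by positivity)
        _ = _ := by ring
    refine h7.trans (mul_le_mul_of_nonneg_left ?_ (by norm_num))
    rw [Finset.mul_sum]
    refine Finset.sum_le_sum fun e₁ h₁ => ?_
    rw [Finset.mul_sum]
    refine Finset.sum_le_sum fun e₂ h₂ => ?_
    rw [Finset.mul_sum]
    exact Finset.sum_le_sum fun e₃ h₃ => h2 e₁ h₁ e₂ h₂ e₃ h₃

end Vale.Agent.P146.H453
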