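import Vale.Agent.P146.R2.H453.Norm

/-!
# P146: equivariance and parity of the fresh sums
-/

open Finset

namespace Vale.Agent.P146.H453

variable {n : ℕ}

lemma mem_st_cases {u v : Fin n} {e : Pair n} (hv : e ∈ st v) (hu : e ∈ st u) :
    u = v ∨ u = ot v e := by
  by_cases h : u = v
  · exact Or.inl h
  · right
    rw [mem_st] at hu hv
    unfold ot
    by_cases h1 : e.1.1 = v
    · rw [if_pos h1]
      rcases hu with h2 | h2
      · exact absurd (h2.symm.trans h1) h
      · exact h2.symm
    · rw [if_neg h1]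
      rcases hu with h2 | h2
      · exact h2.symm
      · have h3 : e.1.2 = v := hv.resolve_left h1
        exact absurd (h2.symm.trans h3) h

lemma deg_un {v : Fin n} {e : Pair n} (h : e ∈ st v) (u : Fin n) :
    deg (un e) u = (if u = v then 1 else 0) + (if u = ot v e then 1 else 0) := by
  by_cases h1 : u = v
  · subst h1
    rw [deg_un_of_mem h, if_pos rfl, if_neg (ot_ne u e).symm]
  · by_cases h2 : u = ot v e
    · rw [if_neg h1, if_pos h2, h2, deg_un_of_mem (st_ot v e)]
    · rw [if_neg h1, if_neg h2, deg_un_of_not_mem]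
      intro h3
      rcases mem_st_cases h h3 with h4 | h4
      · exact h1 h4
      · exact h2 h4

lemma par_fr {j : Fin n} (Q : Finset (Fin n)) {A : Fam n} (hA : Par j A) : Par j (fr Q A) := by
  intro v α hne u
  unfold fr at hne
  have h1 : ∃ e ∈ fs Q v α, A (ot v e) (α + un e) ≠ 0 := by
    by_contra hcon
    push Not at hcon
    apply hne
    rw [Finset.sum_eq_zero hcon, mul_zero]
  obtain ⟨e, he, h2⟩ := h1
  have h3 : e ∈ st v := fs_sub Q v α he
  have h4 := hA (ot v e) (α + un e) h2 u
  rw [deg_add, deg_un h3 u] at h4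
  split_ifs at h4 ⊢ <;> simp only [Nat.even_iff] at h4 ⊢ <;> omega

lemma par_fk {j : Fin n} (Q : Finset (Fin n)) {A : Fam n} (hA : Par j A) (k : ℕ) :
    Par j (fk Q A k) := by
  induction k with
  | zero => exact hA
  | succ k ih => exact par_fr Q ih

lemma deg_perm (π : Equiv.Perm (Fin n)) (α : MI n) (i : Fin n) :
    deg (fun e => α ((pe π).symm e)) (π i) = deg α i := by
  unfold deg
  refine Finset.sum_nbij' (fun e => (pe π).symm e) (fun e => pe π e) ?_ ?_ ?_ ?_ ?_
  · intro e he
    have h := (pf_mem π.symm he).1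
    rw [Equiv.symm_apply_apply] at h
    exact h
  · intro e he
    exact (pf_mem π he).1
  · intro e _
    exact Equiv.apply_symm_apply _ _
  · intro e _
    exact Equiv.symm_apply_apply _ _
  · intro _ _
    rfl

lemma un_perm (π : Equiv.Perm (Fin n)) (α : MI n) (e : Pair n) :
    (fun x => (α + un e) ((pe π).symm x)) = (fun x => α ((pe π).symm x)) + un (pe π e) := by
  funext x
  simp only [Pi.add_apply]
  congr 1
  by_cases h : x = pe π e
  · rw [h, Equiv.symm_apply_apply, un_self, un_self]
  · rw [un_ne h, un_ne]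
    intro h'
    apply h
    rw [← h', Equiv.apply_symm_apply]

lemma equi_fr {Q : Finset (Fin n)} {A : Fam n} (hA : Equi Q A) : Equi Q (fr Q A) := by
  intro π hπ v α
  have hQ : ∀ x, π x ∉ Q ↔ x ∉ Q := by
    intro x
    constructor
    · intro h h'
      exact h (by rw [hπ x h']; exact h')
    · intro h h'
      have h1 := hπ _ h'
      have h2 := π.injective h1
      exact h (by rw [h2] at h'; exact h')
  unfold fr
  congr 1
  symm
  refine Finset.sum_nbij' (fun e => pe π e) (fun e => (pe π).symm e) ?_ ?_ ?_ ?_ ?_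
  · intro e he
    rw [fs, mem_filter] at he ⊢
    obtain ⟨h1, h2, h3⟩ := he
    obtain ⟨h4, h5⟩ := pf_mem π h1
    refine ⟨h4, ?_, ?_⟩
    · change ot (π v) (pf π e) ∉ Q
      rw [h5, hQ]
      exact h2
    · change deg _ (ot (π v) (pf π e)) = 0
      rw [h5, deg_perm]
      exact h3
  · intro e he
    rw [fs, mem_filter] at he ⊢
    obtain ⟨h1, h2, h3⟩ := he
    obtain ⟨h4, h5⟩ := pf_mem π.symm h1
    rw [Equiv.symm_apply_apply] at h4 h5
    have h6 : π (ot v ((pe π).symm e)) = ot (π v) e := by
      change π (ot v (pf π.symm e)) = _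
      rw [h5, Equiv.apply_symm_apply]
    refine ⟨h4, ?_, ?_⟩
    · rw [← hQ, h6]
      exact h2
    · rw [← deg_perm π, h6]
      exact h3
  · intro e _
    exact Equiv.symm_apply_apply _ _
  · intro e _
    exact Equiv.apply_symm_apply _ _
  · intro e he
    have h1 : e ∈ st v := fs_sub Q v α he
    have h5 : ot (π v) (pe π e) = π (ot v e) := (pf_mem π h1).2
    rw [h5, ← un_perm, hA π hπ]

lemma equi_fk {Q : Finset (Fin n)} {A : Fam n} (hA : Equi Q A) (k : ℕ) : Equi Q (fk Q A k) := by
  induction k with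
  | zero => exact hA
  | succ k ih => exact equi_fr ih

lemma pf_fix {π : Equiv.Perm (Fin n)} {x : Pair n} (h1 : π x.1.1 = x.1.1) (h2 : π x.1.2 = x.1.2) :
    pf π x = x := by
  unfold pf
  rw [dif_pos (by rw [h1, h2]; exact x.2)]
  exact Subtype.ext (Prod.ext h1 h2)

/-- all the terms of a fresh sum are equal -/
lemma exch {Q : Finset (Fin n)} {A : Fam n} (hA : Equi Q A) {v : Fin n} {α : MI n}
    {e e' : Pair n} (he : e ∈ fs Q v α) (he' : e' ∈ fs Q v α) :
    A (ot v e) (α + un e) = A (ot v e') (α + un e') := by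
  rw [fs, mem_filter] at he he'
  obtain ⟨a1, a2, a3⟩ := he
  obtain ⟨b1, b2, b3⟩ := he'
  set π : Equiv.Perm (Fin n) := Equiv.swap (ot v e) (ot v e') with hπ
  have hfix : ∀ x, x ≠ ot v e → x ≠ ot v e' → π x = x := fun x h h' =>
    Equiv.swap_apply_of_ne_of_ne h h'
  have hQ : ∀ x ∈ Q, π x = x := by
    intro x hx
    refine hfix x ?_ ?_
    · rintro rfl
      exact a2 hx
    · rintro rfl
      exact b2 hx
  have hv : π v = v := hfix v (ot_ne v e).symm (ot_ne v e').symm
  have h1 : π (ot v e) = ot v e' := Equiv.swap_apply_left _ _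
  have h1' : π (ot v e') = ot v e := Equiv.swap_apply_right _ _
  have h2 : pe π e = e' := by
    obtain ⟨h3, h4⟩ := pf_mem π a1
    rw [hv] at h3 h4
    exact ot_inj h3 b1 (h4.trans h1)
  have hsymm : ∀ x, π.symm x = π x := by
    intro x
    rw [hπ, Equiv.symm_swap]
  have h3 : (fun x => α ((pe π).symm x)) = α := by
    funext x
    change α (pf π.symm x) = α x
    rw [deg_zero_iff] at a3 b3
    by_cases c1 : x ∈ st (ot v e)
    · rw [a3 x c1]
      have := (pf_mem π.symm c1).1
      rw [hsymm, h1] at this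
      exact b3 _ this
    · by_cases c2 : x ∈ st (ot v e')
      · rw [b3 x c2]
        have := (pf_mem π.symm c2).1
        rw [hsymm, h1'] at this
        exact a3 _ this
      · rw [mem_st, not_or] at c1 c2
        rw [pf_fix]
        · rw [hsymm]
          exact hfix _ c1.1 c2.1
        · rw [hsymm]
          exact hfix _ c1.2 c2.2
  have h4 := hA π hQ (ot v e) (α + un e)
  rw [un_perm, h3, h2, h1] at h4
  exact h4.symm

end Vale.Agent.P146.H453
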