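import Vale.Agent.P146.Bd3.B4
import Vale.Agent.P146.H605.Noise

set_option linter.all false

/-!
# P146: the Laplace transform of a convex function of a Gaussian vector on the negative side,
with the covariance of correlated copies
-/

open MeasureTheory ProbabilityTheory
open scoped ENNReal

namespace Vale.Agent.P146.R2.H453.Lo

open Vale.Agent.P146 Vale.Agent.P146.Lt Vale.Agent.P146.Ub.Cv Vale.Agent.P146.H605

section gen

variable {ι : Type} [Fintype ι]

/-- one Gaussian step, with the weights `1 - t` and `t` -/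
theorem step_exp_t {u : (ι → ℝ) → ℝ≥0∞} (hu : Measurable u) {A : (ι → ℝ) → ℝ}
    {w : ι → (ι → ℝ) → ℝ} (hA : Measurable A) (hw : ∀ i, Measurable (w i))
    (iA : Integrable A (gpi ι)) (iW : Integrable (fun z => ∑ i, w i z ^ 2) (gpi ι))
    (h : ∀ y z, u y ≤ ENNReal.ofReal (Real.exp (-(A z + ∑ i, w i z * (y i - z i)))))
    {t : ℝ} (ht0 : 0 < t) (ht1 : t < 1) :
    ∫⁻ y, u y ∂(gpi ι) ≤ ENNReal.ofReal (Real.exp (-(∫ z, A z ∂(gpi ι)) +
      (∫ z, ∑ i, w i z ^ 2 ∂(gpi ι)) / (2 * t))) := by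
  obtain ⟨s, hs⟩ : ∃ s, s = 1 - t := ⟨_, rfl⟩
  have hs0 : 0 < s := by rw [hs]; linarith
  have hst : s + t = 1 := by rw [hs]; ring
  have hrp : ∀ a z : ℝ, ENNReal.ofReal (Real.exp z) ^ a = ENNReal.ofReal (Real.exp (a * z)) := by
    intro a z
    rw [ENNReal.ofReal_rpow_of_pos (Real.exp_pos _), ← Real.exp_mul]
    congr 2
    ring
  have mW : Measurable (fun z => ∑ i, w i z ^ 2) :=
    Finset.measurable_sum _ fun i _ => (hw i).pow_const 2
  set I := ∫⁻ y, u y ∂(gpi ι) with hI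
  set J := ∫⁻ z, ENNReal.ofReal (Real.exp (s / t * A z - s / (2 * t ^ 2) * ∑ i, w i z ^ 2))
    ∂(gpi ι) with hJ
  have mE : Measurable (fun z => ENNReal.ofReal (Real.exp (s / t * A z -
      s / (2 * t ^ 2) * ∑ i, w i z ^ 2))) :=
    (Real.measurable_exp.comp ((hA.const_mul (s / t)).sub
        (mW.const_mul (s / (2 * t ^ 2))))).ennreal_ofReal
  have h1 : I ^ s * J ^ t ≤ 1 := by
    have h2 := gaussPL (ι := ι) (s := s) (t := t) hs0 ht0 hst u
      (fun z => ENNReal.ofReal (Real.exp (s / t * A z - s / (2 * t ^ 2) * ∑ i, w i z ^ 2)))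
      (fun _ => 1) hu
      mE
      measurable_const (fun y z => by
        have h3 := ENNReal.rpow_le_rpow (h y z) hs0.le
        rw [hrp] at h3
        rw [hrp, one_mul]
        refine (mul_le_mul_left h3 _).trans ?_
        rw [← ENNReal.ofReal_mul (Real.exp_pos _).le, ← Real.exp_add]
        refine ENNReal.ofReal_le_ofReal (Real.exp_le_exp.2 ?_)
        have h5 : -(s * ∑ i, w i z * (y i - z i)) - s / (2 * t) * ∑ i, w i z ^ 2 ≤
            s * t / 2 * ∑ i, (y i - z i) ^ 2 := by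
          rw [Finset.mul_sum, Finset.mul_sum, Finset.mul_sum, ← Finset.sum_neg_distrib,
            ← Finset.sum_sub_distrib]
          refine Finset.sum_le_sum fun i _ => ?_
          have h6 : s * t / 2 * (y i - z i) ^ 2 - (-(s * (w i z * (y i - z i))) -
            s / (2 * t) * w i z ^ 2) = s / (2 * t) * (t * (y i - z i) + w i z) ^ 2 := by
            field_simp
            ring
          have h7 : 0 ≤ s / (2 * t) * (t * (y i - z i) + w i z) ^ 2 := by positivity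
          linarith only [h6, h7]
        have h8 : t * (s / t * A z - s / (2 * t ^ 2) * ∑ i, w i z ^ 2) =
            s * A z - s / (2 * t) * ∑ i, w i z ^ 2 := by
          field_simp
        rw [h8]
        linarith only [h5])
    rw [lintegral_const, measure_univ, one_mul] at h2
    exact h2
  have i1 : Integrable (fun z => s / t * A z) (gpi ι) := iA.const_mul _
  have i2 : Integrable (fun z => s / (2 * t ^ 2) * ∑ i, w i z ^ 2) (gpi ι) := iW.const_mul _
  have h9 := lt_jensen (i1.sub i2)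
  simp only [Pi.sub_apply] at h9
  rw [integral_sub i1 i2, integral_const_mul, integral_const_mul, ← hJ] at h9
  set m : ℝ := ∫ z, A z ∂(gpi ι) - (∫ z, ∑ i, w i z ^ 2 ∂(gpi ι)) / (2 * t) with hm
  have h10 : (I * ENNReal.ofReal (Real.exp m)) ^ s ≤ 1 := by
    rw [ENNReal.mul_rpow_of_nonneg _ _ hs0.le, hrp]
    have h11 := ENNReal.rpow_le_rpow h9 ht0.le
    rw [hrp] at h11
    have h12 : t * (s / t * ∫ z, A z ∂(gpi ι) - s / (2 * t ^ 2) *
        ∫ z, ∑ i, w i z ^ 2 ∂(gpi ι)) = s * m := by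
      rw [hm]
      field_simp
    rw [h12] at h11
    exact (mul_le_mul_right h11 _).trans h1
  have h13 : I * ENNReal.ofReal (Real.exp m) ≤ 1 := by
    by_contra h7
    rw [not_le] at h7
    have h8 : (1 : ℝ≥0∞) ^ s < (I * ENNReal.ofReal (Real.exp m)) ^ s :=
      ENNReal.rpow_lt_rpow h7 hs0
    rw [ENNReal.one_rpow] at h8
    exact absurd h10 (not_le.2 h8)
  have h14 : -(∫ z, A z ∂(gpi ι)) + (∫ z, ∑ i, w i z ^ 2 ∂(gpi ι)) / (2 * t) = -m := by
    rw [hm]; ring
  rw [h14, Real.exp_neg, ENNReal.ofReal_inv_of_pos (Real.exp_pos _)]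
  exact ENNReal.le_inv_iff_mul_le.2 h13

/-- **One Gaussian step.** -/
theorem step_exp {u : (ι → ℝ) → ℝ≥0∞} (hu : Measurable u) {A : (ι → ℝ) → ℝ}
    {w : ι → (ι → ℝ) → ℝ} (hA : Measurable A) (hw : ∀ i, Measurable (w i))
    (iA : Integrable A (gpi ι)) (iW : Integrable (fun z => ∑ i, w i z ^ 2) (gpi ι))
    (h : ∀ y z, u y ≤ ENNReal.ofReal (Real.exp (-(A z + ∑ i, w i z * (y i - z i))))) :
    ∫⁻ y, u y ∂(gpi ι) ≤ ENNReal.ofReal (Real.exp (-(∫ z, A z ∂(gpi ι)) +
      (∫ z, ∑ i, w i z ^ 2 ∂(gpi ι)) / 2)) := by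
  have h1 : Filter.Tendsto (fun t : ℝ => ENNReal.ofReal (Real.exp (-(∫ z, A z ∂(gpi ι)) +
      (∫ z, ∑ i, w i z ^ 2 ∂(gpi ι)) / (2 * t)))) (nhdsWithin 1 (Set.Iio 1))
      (nhds (ENNReal.ofReal (Real.exp (-(∫ z, A z ∂(gpi ι)) +
      (∫ z, ∑ i, w i z ^ 2 ∂(gpi ι)) / (2 * 1))))) := by
    refine Filter.Tendsto.mono_left ?_ nhdsWithin_le_nhds
    refine (ENNReal.continuous_ofReal.tendsto _).comp ((Real.continuous_exp.tendsto _).comp ?_)
    refine tendsto_const_nhds.add (tendsto_const_nhds.div (tendsto_const_nhds.mul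
      Filter.tendsto_id) (by norm_num))
  rw [mul_one] at h1
  refine ge_of_tendsto h1 ?_
  have h2 : Set.Ioo (0 : ℝ) 1 ∈ nhdsWithin (1 : ℝ) (Set.Iio 1) := Ioo_mem_nhdsLT one_pos
  filter_upwards [h2] with t ht
  exact step_exp_t hu hA hw iA iW h ht.1 ht.2

/-! ### The conditional means -/

/-- the conditional mean at time `θ` -/
noncomputable def cond (f : (ι → ℝ) → ℝ) (θ : ℝ) (z : ι → ℝ) : ℝ :=
  ∫ y, f (mix (√θ) (√(1 - θ)) z y) ∂(gpi ι)

lemma abs_sqrt_le {θ : ℝ} (h1 : θ ≤ 1) : |√θ| ≤ 1 := by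
  rw [abs_of_nonneg (Real.sqrt_nonneg _)]
  exact Real.sqrt_le_one.2 h1

lemma sq_sq {θ : ℝ} (h0 : 0 ≤ θ) (h1 : θ ≤ 1) : √θ ^ 2 + √(1 - θ) ^ 2 = 1 := by
  rw [Real.sq_sqrt h0, Real.sq_sqrt (by linarith)]
  ring

lemma cond_meas {f : (ι → ℝ) → ℝ} (hf : Lin f) (θ : ℝ) : Measurable (cond f θ) := by
  have sF : StronglyMeasurable (fun p : (ι → ℝ) × (ι → ℝ) => f (mix (√θ) (√(1 - θ)) p.1 p.2)) :=
    (hf.cont.measurable.comp (measurable_mix _ _)).stronglyMeasurable
  exact (sF.integral_prod_right (ν := gpi ι)).measurable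

lemma cond_integrable {f : (ι → ℝ) → ℝ} (hf : Lin f) {θ : ℝ} (h0 : 0 ≤ θ) (h1 : θ ≤ 1) :
    Integrable (cond f θ) (gpi ι) := (hf.mix2 (sq_sq h0 h1)).1.integral_prod_left

lemma cond_bound {f : (ι → ℝ) → ℝ} {B : ℝ} (hb : ∀ z, |f z| ≤ B) (θ : ℝ) (z : ι → ℝ) :
    |cond f θ z| ≤ B := by
  have h1 := norm_integral_le_of_norm_le_const (μ := gpi ι)
    (f := fun y => f (mix (√θ) (√(1 - θ)) z y)) (C := B)
    (Filter.Eventually.of_forall fun y => hb _)
  unfold cond
  simpa using h1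

lemma cond_fix {f : (ι → ℝ) → ℝ} (hf : Lin f) {θ : ℝ} (h0 : 0 ≤ θ) (h1 : θ ≤ 1) (z : ι → ℝ) :
    Integrable (fun y => f (mix (√θ) (√(1 - θ)) z y)) (gpi ι) :=
  (hf.fix (abs_sqrt_le h1) (abs_sqrt_le (by linarith)) z).dom.integrable

lemma cond_zero {f : (ι → ℝ) → ℝ} (z : ι → ℝ) : cond f 0 z = ∫ y, f y ∂(gpi ι) := by
  unfold cond
  refine integral_congr_ae (Filter.Eventually.of_forall fun y => ?_)
  simp only
  congr 1
  funext i
  simp [mix_apply]

/-- two steps -/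
lemma mix_comp {θ θ' : ℝ} (h0 : 0 ≤ θ') (hlt : θ' < θ) (h1 : θ ≤ 1) (z y w : ι → ℝ) :
    mix (√θ) (√(1 - θ)) (mix (√(θ' / θ)) (√(1 - θ' / θ)) z y) w =
      mix (√θ') (√(1 - θ')) z (mix (√((θ - θ') / (1 - θ'))) (√(1 - (θ - θ') / (1 - θ'))) y w) := by
  have hθ : 0 < θ := lt_of_le_of_lt h0 hlt
  have h2 : 0 < 1 - θ' := by linarith
  have e1 : √θ * √(θ' / θ) = √θ' := by
    rw [← Real.sqrt_mul hθ.le]
    congr 1
    field_simp
  have e2 : √θ * √(1 - θ' / θ) = √(θ - θ') := by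
    rw [← Real.sqrt_mul hθ.le]
    congr 1
    field_simp
  have e3 : √(1 - θ') * √((θ - θ') / (1 - θ')) = √(θ - θ') := by
    rw [← Real.sqrt_mul h2.le]
    congr 1
    field_simp
  have e4 : √(1 - θ') * √(1 - (θ - θ') / (1 - θ')) = √(1 - θ) := by
    rw [← Real.sqrt_mul h2.le]
    congr 1
    field_simp
    ring
  funext i
  simp only [mix_apply]
  calc √θ * (√(θ' / θ) * z i + √(1 - θ' / θ) * y i) + √(1 - θ) * w i
      = √θ * √(θ' / θ) * z i + √θ * √(1 - θ' / θ) * y i + √(1 - θ) * w i := by ring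
    _ = √θ' * z i + √(1 - θ') * √((θ - θ') / (1 - θ')) * y i +
          √(1 - θ') * √(1 - (θ - θ') / (1 - θ')) * w i := by rw [e1, e2, e3, e4]
    _ = _ := by ring

lemma cond_comp {f : (ι → ℝ) → ℝ} (hf : Lin f) {θ θ' : ℝ} (h0 : 0 ≤ θ') (hlt : θ' < θ)
    (h1 : θ ≤ 1) (z : ι → ℝ) :
    ∫ y, cond f θ (mix (√(θ' / θ)) (√(1 - θ' / θ)) z y) ∂(gpi ι) = cond f θ' z := by
  have h2 : 0 < 1 - θ' := by linarith
  have a0 : 0 ≤ (θ - θ') / (1 - θ') := div_nonneg (by linarith) h2.le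
  have a1 : (θ - θ') / (1 - θ') ≤ 1 := (div_le_one h2).2 (by linarith)
  have hL : Lin (fun w => f (mix (√θ') (√(1 - θ')) z w)) :=
    hf.fix (abs_sqrt_le (by linarith)) (abs_sqrt_le (by linarith)) z
  unfold cond
  simp_rw [mix_comp h0 hlt h1]
  rw [← integral_prod (f := fun q : (ι → ℝ) × (ι → ℝ) => f (mix (√θ') (√(1 - θ')) z
    (mix (√((θ - θ') / (1 - θ'))) (√(1 - (θ - θ') / (1 - θ'))) q.1 q.2)))
    (hL.mix2 (sq_sq a0 a1)).1]
  exact int_mix (sq_sq a0 a1) hL.cont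

lemma cond_mix_int {f : (ι → ℝ) → ℝ} (hf : Lin f) {θ θ' : ℝ} (h0 : 0 ≤ θ') (hlt : θ' < θ)
    (h1 : θ ≤ 1) (z : ι → ℝ) :
    Integrable (fun y => cond f θ (mix (√(θ' / θ)) (√(1 - θ' / θ)) z y)) (gpi ι) := by
  have h2 : 0 < 1 - θ' := by linarith
  have a0 : 0 ≤ (θ - θ') / (1 - θ') := div_nonneg (by linarith) h2.le
  have a1 : (θ - θ') / (1 - θ') ≤ 1 := (div_le_one h2).2 (by linarith)
  have hL : Lin (fun w => f (mix (√θ') (√(1 - θ')) z w)) :=
    hf.fix (abs_sqrt_le (by linarith)) (abs_sqrt_le (by linarith)) z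
  unfold cond
  simp_rw [mix_comp h0 hlt h1]
  exact (hL.mix2 (sq_sq a0 a1)).1.integral_prod_left

/-! ### The chain -/

variable (F : (ι → ℝ) → ℝ) (G : ι → (ι → ℝ) → ℝ) (x : ℝ) (I : ℝ≥0∞)

/-- the property carried by the chain: at time `θ` with cost at most `c` -/
def Cl (θ c : ℝ) : Prop := ∃ (V : (ι → ℝ) → ℝ≥0∞) (C : (ι → ℝ) → ℝ), Measurable V ∧
  ∫⁻ y, V y ∂(gpi ι) = I ∧ Measurable C ∧ (∃ K, ∀ z, |C z| ≤ K) ∧ ∫ z, C z ∂(gpi ι) ≤ c ∧
  ∀ y z, V y ≤ ENNReal.ofReal (Real.exp (-(x * cond F θ z +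
    ∑ i, x * √θ * cond (G i) θ z * (y i - z i)) + C z))

variable {F G x I}

lemma Cl.mono {θ c c' : ℝ} (h : Cl F G x I θ c) (hc : c ≤ c') : Cl F G x I θ c' := by
  obtain ⟨V, C, h1, h2, h3, h4, h5, h6⟩ := h
  exact ⟨V, C, h1, h2, h3, h4, h5.trans hc, h6⟩

/-- the end of the chain -/
lemma Cl.fin {c : ℝ} (h : Cl F G x I 0 c) :
    I ≤ ENNReal.ofReal (Real.exp (-(x * ∫ z, F z ∂(gpi ι)) + c)) := by
  obtain ⟨V, C, h1, h2, h3, ⟨K, hK⟩, h5, h6⟩ := h
  have iC : Integrable C (gpi ι) := Integrable.of_bound h3.aestronglyMeasurable K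
    (Filter.Eventually.of_forall hK)
  obtain ⟨z, hz⟩ := exists_le_integral iC
  rw [← h2]
  calc ∫⁻ y, V y ∂(gpi ι) ≤
        ∫⁻ _, ENNReal.ofReal (Real.exp (-(x * ∫ z, F z ∂(gpi ι)) + c)) ∂(gpi ι) := by
        refine lintegral_mono fun y => (h6 y z).trans ?_
        refine ENNReal.ofReal_le_ofReal (Real.exp_le_exp.2 ?_)
        rw [cond_zero, Real.sqrt_zero]
        simp only [mul_zero, zero_mul, Finset.sum_const_zero, add_zero]
        linarith
    _ = _ := by rw [lintegral_const, measure_univ, mul_one]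

/-- **One step of the chain.** -/
theorem Cl.step (hF : Lin F) (hG : ∀ i, Lin (G i)) {B : ℝ} (hB : ∀ i z, |G i z| ≤ B)
    {θ θ' c : ℝ} (h0 : 0 ≤ θ') (hlt : θ' < θ) (h1 : θ ≤ 1) (h : Cl F G x I θ c) :
    Cl F G x I θ' (c + x ^ 2 / 2 * ((θ - θ') * ∑ i, ∫ z, cond (G i) θ z ^ 2 ∂(gpi ι))) := by
  obtain ⟨V, C, mV, hI, mC, ⟨K, hK⟩, hc, hcl⟩ := h
  have hθ : 0 < θ := lt_of_le_of_lt h0 hlt
  have q0 : 0 ≤ θ' / θ := div_nonneg h0 hθ.le
  have q1 : θ' / θ ≤ 1 := (div_le_one hθ).2 hlt.le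
  obtain ⟨r, hr⟩ : ∃ r, r = θ' / θ := ⟨_, rfl⟩
  rw [← hr] at q0 q1
  have hsq := sq_sq q0 q1
  have hmix := mp_mix (ι := ι) hsq
  have e1 : √θ * √r = √θ' := by
    rw [hr, ← Real.sqrt_mul hθ.le]
    congr 1
    field_simp
  have e2 : √θ * √(1 - r) = √(θ - θ') := by
    rw [hr, ← Real.sqrt_mul hθ.le]
    congr 1
    field_simp
  -- the cost of the step
  set W : (ι → ℝ) → ℝ := fun z => x ^ 2 / 2 * (θ - θ') * ∑ i, cond (G i) θ z ^ 2 with hW
  have mW : Measurable W := (Finset.measurable_sum _ fun i _ =>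
    (cond_meas (hG i) θ).pow_const 2).const_mul _
  have hWb : ∀ z, |W z| ≤ x ^ 2 / 2 * (θ - θ') * ∑ _i : ι, B ^ 2 := by
    intro z
    have h2 : 0 ≤ x ^ 2 / 2 * (θ - θ') := mul_nonneg (by positivity) (by linarith)
    rw [hW]
    simp only
    rw [abs_of_nonneg (mul_nonneg h2 (Finset.sum_nonneg fun i _ => sq_nonneg _))]
    refine mul_le_mul_of_nonneg_left (Finset.sum_le_sum fun i _ => ?_) h2
    rw [← sq_abs]
    exact pow_le_pow_left₀ (abs_nonneg _) (cond_bound (hB i) θ z) 2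
  set D : (ι → ℝ) → ℝ := fun z => C z + W z with hD
  have mD : Measurable D := mC.add mW
  obtain ⟨K', hK'⟩ : ∃ K', ∀ z, |D z| ≤ K' :=
    ⟨K + x ^ 2 / 2 * (θ - θ') * ∑ _i : ι, B ^ 2, fun z => (abs_add_le _ _).trans
      (add_le_add (hK z) (hWb z))⟩
  have iD : Integrable D (gpi ι) := Integrable.of_bound mD.aestronglyMeasurable K'
    (Filter.Eventually.of_forall hK')
  have mm : ∀ z, Measurable (fun y : ι → ℝ => mix (√r) (√(1 - r)) z y) := fun z =>
    (measurable_mix _ _).comp measurable_prodMk_left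
  have iDz : ∀ z, Integrable (fun y => D (mix (√r) (√(1 - r)) z y)) (gpi ι) := fun z =>
    Integrable.of_bound (mD.comp (mm z)).aestronglyMeasurable K'
      (Filter.Eventually.of_forall fun y => hK' _)
  refine ⟨fun y => ∫⁻ w, V (mix (√r) (√(1 - r)) y w) ∂(gpi ι),
    fun z => ∫ w, D (mix (√r) (√(1 - r)) z w) ∂(gpi ι), ?_, ?_, ?_, ⟨K', ?_⟩, ?_, ?_⟩
  · exact Measurable.lintegral_prod_right (mV.comp hmix.measurable)
  · rw [← hI, ← hmix.lintegral_comp mV]
    exact (lintegral_prod _ (mV.comp hmix.measurable).aemeasurable).symm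
  · have h2 : StronglyMeasurable (fun p : (ι → ℝ) × (ι → ℝ) =>
        D (mix (√r) (√(1 - r)) p.1 p.2)) := (mD.comp hmix.measurable).stronglyMeasurable
    exact (h2.integral_prod_right (ν := gpi ι)).measurable
  · intro z
    have h2 := norm_integral_le_of_norm_le_const (μ := gpi ι)
      (f := fun w => D (mix (√r) (√(1 - r)) z w)) (C := K')
      (Filter.Eventually.of_forall fun y => hK' _)
    simpa using h2
  · have h2 : ∫ z, ∫ w, D (mix (√r) (√(1 - r)) z w) ∂(gpi ι) ∂(gpi ι) = ∫ z, D z ∂(gpi ι) := by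
      rw [← integral_prod (f := fun q : (ι → ℝ) × (ι → ℝ) => D (mix (√r) (√(1 - r)) q.1 q.2))
        (hmix.integrable_comp_of_integrable iD)]
      conv_rhs => rw [← hmix.map_eq]
      rw [integral_map hmix.measurable.aemeasurable]
      rw [hmix.map_eq]
      exact mD.aestronglyMeasurable
    rw [h2]
    have iC : Integrable C (gpi ι) := Integrable.of_bound mC.aestronglyMeasurable K
      (Filter.Eventually.of_forall hK)
    have iG : ∀ i, Integrable (fun z => cond (G i) θ z ^ 2) (gpi ι) := fun i =>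
      Integrable.of_bound ((cond_meas (hG i) θ).pow_const 2).aestronglyMeasurable (B ^ 2)
        (Filter.Eventually.of_forall fun z => by
          rw [Real.norm_eq_abs, abs_of_nonneg (sq_nonneg _), ← sq_abs]
          exact pow_le_pow_left₀ (abs_nonneg _) (cond_bound (hB i) θ z) 2)
    have iW : Integrable W (gpi ι) := (integrable_finset_sum _ fun i _ => iG i).const_mul _
    rw [hD, integral_add iC iW, hW, integral_const_mul, integral_finset_sum _ fun i _ => iG i]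
    linarith
  · intro y z
    -- the one step inequality
    have mG : ∀ i, Measurable (fun w => cond (G i) θ (mix (√r) (√(1 - r)) z w)) := fun i =>
      (cond_meas (hG i) θ).comp (mm z)
    have iF0 : Integrable (fun w => cond F θ (mix (√r) (√(1 - r)) z w)) (gpi ι) := by
      rw [hr]
      exact cond_mix_int hF h0 hlt h1 z
    have iG0 : ∀ i, Integrable (fun w => cond (G i) θ (mix (√r) (√(1 - r)) z w)) (gpi ι) := by
      intro i
      rw [hr]
      exact cond_mix_int (hG i) h0 hlt h1 z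
    have iC0 : Integrable (fun w => C (mix (√r) (√(1 - r)) z w)) (gpi ι) :=
      Integrable.of_bound (mC.comp (mm z)).aestronglyMeasurable K
        (Filter.Eventually.of_forall fun y => hK _)
    have iS0 : Integrable (fun w => ∑ i, x * √θ' * cond (G i) θ (mix (√r) (√(1 - r)) z w) *
        (y i - z i)) (gpi ι) :=
      integrable_finset_sum _ fun i _ => ((iG0 i).const_mul _).mul_const _
    have iW0 : Integrable (fun w => W (mix (√r) (√(1 - r)) z w)) (gpi ι) :=
      Integrable.of_bound (mW.comp (mm z)).aestronglyMeasurable _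
        (Filter.Eventually.of_forall fun y => hWb _)
    have eW : ∀ w, ∑ i, (x * √(θ - θ') * cond (G i) θ (mix (√r) (√(1 - r)) z w)) ^ 2 =
        2 * W (mix (√r) (√(1 - r)) z w) := by
      intro w
      have h2 : √(θ - θ') ^ 2 = θ - θ' := Real.sq_sqrt (by linarith)
      simp only [mul_pow, h2]
      rw [← Finset.mul_sum, hW]
      ring
    have key := step_exp (u := fun w => V (mix (√r) (√(1 - r)) y w))
      (A := fun w => x * cond F θ (mix (√r) (√(1 - r)) z w) +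
        (∑ i, x * √θ' * cond (G i) θ (mix (√r) (√(1 - r)) z w) * (y i - z i)) -
          C (mix (√r) (√(1 - r)) z w))
      (w := fun i w => x * √(θ - θ') * cond (G i) θ (mix (√r) (√(1 - r)) z w))
      (mV.comp (mm y))
      (((((cond_meas hF θ).comp (mm z)).const_mul x).add
        (Finset.measurable_sum _ fun i _ => ((mG i).const_mul _).mul_const _)).sub
          (mC.comp (mm z)))
      (fun i => (mG i).const_mul _)
      (((iF0.const_mul x).add iS0).sub iC0)
      (by simp only [eW]; exact iW0.const_mul 2)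
      (fun w' w => by
        refine (hcl (mix (√r) (√(1 - r)) y w') (mix (√r) (√(1 - r)) z w)).trans ?_
        refine ENNReal.ofReal_le_ofReal (Real.exp_le_exp.2 (le_of_eq ?_))
        have h2 : ∑ i, x * √θ * cond (G i) θ (mix (√r) (√(1 - r)) z w) *
            (mix (√r) (√(1 - r)) y w' i - mix (√r) (√(1 - r)) z w i) =
            (∑ i, x * √θ' * cond (G i) θ (mix (√r) (√(1 - r)) z w) * (y i - z i)) +
            ∑ i, x * √(θ - θ') * cond (G i) θ (mix (√r) (√(1 - r)) z w) * (w' i - w i) := by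
          rw [← Finset.sum_add_distrib]
          refine Finset.sum_congr rfl fun i _ => ?_
          simp only [mix_apply]
          rw [← e1, ← e2]
          ring
        rw [h2]
        ring)
    refine key.trans (ENNReal.ofReal_le_ofReal (Real.exp_le_exp.2 (le_of_eq ?_)))
    have k1 : ∫ w, cond F θ (mix (√r) (√(1 - r)) z w) ∂(gpi ι) = cond F θ' z := by
      rw [hr]
      exact cond_comp hF h0 hlt h1 z
    have k2 : ∀ i, ∫ w, cond (G i) θ (mix (√r) (√(1 - r)) z w) ∂(gpi ι) =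
        cond (G i) θ' z := by
      intro i
      rw [hr]
      exact cond_comp (hG i) h0 hlt h1 z
    have k3 : ∫ w, ∑ i, x * √θ' * cond (G i) θ (mix (√r) (√(1 - r)) z w) * (y i - z i)
        ∂(gpi ι) = ∑ i, x * √θ' * cond (G i) θ' z * (y i - z i) := by
      rw [integral_finset_sum _ fun i _ => ((iG0 i).const_mul _).mul_const _]
      refine Finset.sum_congr rfl fun i _ => ?_
      rw [integral_mul_const, integral_const_mul, k2 i]
    have k4 : ∫ w, D (mix (√r) (√(1 - r)) z w) ∂(gpi ι) =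
        ∫ w, C (mix (√r) (√(1 - r)) z w) ∂(gpi ι) +
          ∫ w, W (mix (√r) (√(1 - r)) z w) ∂(gpi ι) := by
      rw [hD]
      exact integral_add iC0 iW0
    have k5 : ∫ w, ∑ i, (x * √(θ - θ') * cond (G i) θ (mix (√r) (√(1 - r)) z w)) ^ 2
        ∂(gpi ι) = 2 * ∫ w, W (mix (√r) (√(1 - r)) z w) ∂(gpi ι) := by
      simp only [eW]
      exact integral_const_mul _ _
    change _ = -(x * cond F θ' z + ∑ i, x * √θ' * cond (G i) θ' z * (y i - z i)) +
      ∫ w, D (mix (√r) (√(1 - r)) z w) ∂(gpi ι)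
    have i1 : Integrable (fun w => x * cond F θ (mix (√r) (√(1 - r)) z w)) (gpi ι) :=
      iF0.const_mul x
    have iA1 : Integrable (fun w => x * cond F θ (mix (√r) (√(1 - r)) z w) +
        ∑ i, x * √θ' * cond (G i) θ (mix (√r) (√(1 - r)) z w) * (y i - z i)) (gpi ι) :=
      i1.add iS0
    have k6 : ∫ w, (x * cond F θ (mix (√r) (√(1 - r)) z w) +
        (∑ i, x * √θ' * cond (G i) θ (mix (√r) (√(1 - r)) z w) * (y i - z i)) -
          C (mix (√r) (√(1 - r)) z w)) ∂(gpi ι) =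
        x * cond F θ' z + (∑ i, x * √θ' * cond (G i) θ' z * (y i - z i)) -
          ∫ w, C (mix (√r) (√(1 - r)) z w) ∂(gpi ι) := by
      rw [integral_sub iA1 iC0, integral_add i1 iS0, integral_const_mul, k1, k3]
    rw [k4, k5, k6]
    ring

end gen

end Vale.Agent.P146.R2.H453.Lo
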