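import Vale.Agent.P146.R2.H453.Lo2

set_option linter.all false

/-!
# P146: the annealed bound of the limit free energy
-/

open MeasureTheory ProbabilityTheory Filter Topology

namespace Vale.Agent.P146.R2.H453.Lo

open Vale.Agent.P146 Vale.Agent.P146.H605

theorem mean_le_ann {n : ℕ} (hn : 1 ≤ n) (β : ℝ) :
    ∫ g, freeEnergy n β g ∂(disorder n) ≤ n * (Real.log 2 + β ^ 2 / 4) := by
  have h1 := H952.smooth_le hn β le_rfl zero_le_one (fun _ => 0)
  have h2 : ∀ g : Pair n → ℝ, mixed n 0 (fun _ => 0) g = g := by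
    intro g
    funext p
    simp [mixed]
  simp_rw [h2] at h1
  rw [H952.freeEnergy_zero] at h1
  linarith

theorem lim_le_ann {β p : ℝ}
    (hp : Tendsto (fun n : ℕ => (∫ g, freeEnergy n β g ∂(disorder n)) / n) atTop (𝓝 p)) :
    p - Real.log 2 ≤ β ^ 2 / 4 := by
  have h : p ≤ Real.log 2 + β ^ 2 / 4 := by
    refine le_of_tendsto hp ?_
    filter_upwards [eventually_ge_atTop 1] with n hn
    have hn0 : (0 : ℝ) < n := by exact_mod_cast hn
    rw [div_le_iff₀ hn0]
    linarith [mean_le_ann hn β]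
  linarith

end Vale.Agent.P146.R2.H453.Lo
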