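import Vale.Agent.P146.R2.H453.Lo2

set_option linter.all false

/-!
# P146: the Laplace transform on the negative side, through a larger inverse temperature
-/

open MeasureTheory ProbabilityTheory Filter Topology
open scoped ENNReal

namespace Vale.Agent.P146.R2.H453.Lo

open Vale.Agent.P146 Vale.Agent.P146.Lt Vale.Agent.P146.Ub.Cv Vale.Agent.P146.H605

/-- a scaled disorder is a change of temperature -/
lemma freeEnergy_scale (n : ℕ) (β r : ℝ) (g : Pair n → ℝ) :
    freeEnergy n β (fun p => r * g p) = freeEnergy n (r * β) g := by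
  unfold freeEnergy partitionFn hamiltonian
  congr 1
  refine Finset.sum_congr rfl fun σ _ => ?_
  congr 1
  have h : ∑ p : Pair n, r * g p * ((σ p.1.1 : ℤ) : ℝ) * ((σ p.1.2 : ℤ) : ℝ) =
      r * ∑ p : Pair n, g p * ((σ p.1.1 : ℤ) : ℝ) * ((σ p.1.2 : ℤ) : ℝ) := by
    rw [Finset.mul_sum]
    exact Finset.sum_congr rfl fun p _ => by ring
  rw [h]
  ring

variable {n : ℕ} (β : ℝ)

theorem sk_laplace2 (hn : 1 ≤ n) {t : ℝ} (h0 : 0 ≤ t) (h1 : t ≤ 1) {x : ℝ} (hx : 0 ≤ x) :
    ∫⁻ z, ENNReal.ofReal (Real.exp (-(x * freeEnergy n (√t * β) z))) ∂(disorder n) ≤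
      ENNReal.ofReal (Real.exp (-(x * ∫ z, freeEnergy n β z ∂(disorder n)) +
        (x * ((1 - t) * (β ^ 2 * n / 4)) + x ^ 2 / 2 * crossCov n β t))) := by
  have h2 : ∀ z, ENNReal.ofReal (Real.exp (-(x * freeEnergy n (√t * β) z))) ≤
      ENNReal.ofReal (Real.exp (x * ((1 - t) * (β ^ 2 * n / 4)))) *
        ENNReal.ofReal (Real.exp (-(x * cond (freeEnergy n β) t z))) := by
    intro z
    rw [← ENNReal.ofReal_mul (Real.exp_pos _).le, ← Real.exp_add]
    refine ENNReal.ofReal_le_ofReal (Real.exp_le_exp.2 ?_)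
    have h3 : cond (freeEnergy n β) t z ≤ freeEnergy n (√t * β) z +
        (1 - t) * β ^ 2 * n / 4 := by
      rw [← freeEnergy_scale]
      exact H952.smooth_le_scale hn β h1 z
    have h4 := mul_le_mul_of_nonneg_left h3 hx
    have h5 : x * (freeEnergy n (√t * β) z + (1 - t) * β ^ 2 * n / 4) =
      x * freeEnergy n (√t * β) z + x * ((1 - t) * (β ^ 2 * n / 4)) := by ring
    linarith
  calc ∫⁻ z, ENNReal.ofReal (Real.exp (-(x * freeEnergy n (√t * β) z))) ∂(disorder n) ≤
        ∫⁻ z, ENNReal.ofReal (Real.exp (x * ((1 - t) * (β ^ 2 * n / 4)))) *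
          ENNReal.ofReal (Real.exp (-(x * cond (freeEnergy n β) t z))) ∂(disorder n) :=
        lintegral_mono h2
    _ = ENNReal.ofReal (Real.exp (x * ((1 - t) * (β ^ 2 * n / 4)))) *
          ∫⁻ z, ENNReal.ofReal (Real.exp (-(x * cond (freeEnergy n β) t z))) ∂(disorder n) :=
        lintegral_const_mul' _ _ ENNReal.ofReal_ne_top
    _ ≤ ENNReal.ofReal (Real.exp (x * ((1 - t) * (β ^ 2 * n / 4)))) *
          ENNReal.ofReal (Real.exp (-(x * ∫ z, freeEnergy n β z ∂(disorder n)) +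
            x ^ 2 / 2 * crossCov n β t)) := by
        gcongr
        exact sk_cond β hn h0 h1 hx
    _ = _ := by
        rw [← ENNReal.ofReal_mul (Real.exp_pos _).le, ← Real.exp_add]
        congr 2
        ring

/-- **The Laplace transform on the negative side at an inverse temperature `b ≤ β`.** -/
theorem sk_LB2 (hn : 1 ≤ n) {b β : ℝ} (hb : 0 < b) (hbβ : b ≤ β) {x : ℝ} (hx : 0 ≤ x) :
    ∫ g, Real.exp (-(x * (freeEnergy n b g - ∫ h, freeEnergy n b h ∂(disorder n))))
        ∂(disorder n) ≤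
      Real.exp (x * ((β ^ 2 - b ^ 2) * n / 4 - (∫ h, freeEnergy n β h ∂(disorder n) -
        ∫ h, freeEnergy n b h ∂(disorder n))) + x ^ 2 / 2 * crossCov n β ((b / β) ^ 2)) := by
  have hβ : 0 < β := hb.trans_le hbβ
  obtain ⟨E, hE⟩ : ∃ E, E = ∫ h, freeEnergy n b h ∂(disorder n) := ⟨_, rfl⟩
  rw [← hE]
  have h2 : ∀ g, Real.exp (-(x * (freeEnergy n b g - E))) =
      Real.exp (x * E) * Real.exp (-(x * freeEnergy n b g)) := by
    intro g
    rw [← Real.exp_add]
    congr 1
    ring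
  simp_rw [h2]
  rw [integral_const_mul]
  have t0 : 0 ≤ (b / β) ^ 2 := sq_nonneg _
  have t1 : (b / β) ^ 2 ≤ 1 := pow_le_one₀ (by positivity) ((div_le_one hβ).2 hbβ)
  have ht : √((b / β) ^ 2) * β = b := by
    rw [Real.sqrt_sq (by positivity)]
    field_simp
  have h3 := sk_laplace2 β hn t0 t1 hx
  rw [ht] at h3
  have h4 : ∫ g, Real.exp (-(x * freeEnergy n b g)) ∂(disorder n) ≤
      Real.exp (-(x * ∫ z, freeEnergy n β z ∂(disorder n)) +
        (x * ((1 - (b / β) ^ 2) * (β ^ 2 * n / 4)) +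
          x ^ 2 / 2 * crossCov n β ((b / β) ^ 2))) := by
    have h5 : AEStronglyMeasurable (fun g => Real.exp (-(x * freeEnergy n b g))) (disorder n) :=
      (Real.continuous_exp.comp
        ((lin_freeEnergy n b).cont.const_mul x).neg).aestronglyMeasurable
    rw [integral_eq_lintegral_of_nonneg_ae (Filter.Eventually.of_forall fun g =>
      (Real.exp_pos _).le) h5]
    exact ENNReal.toReal_le_of_le_ofReal (Real.exp_pos _).le h3
  refine (mul_le_mul_of_nonneg_left h4 (Real.exp_pos _).le).trans (le_of_eq ?_)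
  rw [← Real.exp_add]
  congr 1
  have h6 : (1 - (b / β) ^ 2) * (β ^ 2 * n / 4) = (β ^ 2 - b ^ 2) * n / 4 := by
    field_simp
  rw [h6]
  ring

end Vale.Agent.P146.R2.H453.Lo
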