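import Vale.Agent.P146.R2.H729.TrSpec

set_option linter.all false

/-!
# P146: row F of the transport: the limits of the traces
-/

open MeasureTheory ProbabilityTheory Matrix Filter Topology Polynomial
open scoped Matrix.Norms.L2Operator

namespace Vale.Agent.P146.R2.H453.TrF

open Vale.Agent.P166 Vale.Agent.P146 Vale.Agent.P146.H605 Vale.Agent.P146.R3
open Vale.Agent.P146.R2.H432 (cheb)
open Vale.Agent.P146.R3.H432 (Qm Om)
open Vale.Agent.P146.R3.H952 (MinProf)
open Vale.Agent.P146.Sk (Wm Ix Sp Lam Lam_Sp Lam_Sp_mul tp)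
open Vale.Agent.P146.R2.H729.Tr

lemma Wm_isSymm (N : ℕ) (z : Ix N → ℝ) : (Wm N z).IsSymm := by
  ext i j
  simp only [Matrix.transpose_apply, Wm, Matrix.of_apply]
  rw [add_comm]

/-- Kronecker -/
noncomputable def dl (a b : ℕ) : ℝ := if a = b then 1 else 0

lemma sum_dl1 (k : ℕ) :
    ∑ a ∈ Finset.range (k + 1), dl a 0 * dl (k - a) 0 = dl k 0 := by
  rw [Finset.sum_eq_single 0]
  · simp [dl]
  · intro a ha ha0
    simp [dl, ha0]
  · intro h
    exact absurd (Finset.mem_range.2 (by omega)) h

lemma sum_dl2 (k l : ℕ) :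
    ∑ a ∈ Finset.range (k + 1), ∑ b ∈ Finset.range (l + 1),
      (dl a b * dl (k - a) (l - b) + dl a (l - b) * dl (k - a) b) =
        (2 * (k : ℝ) + 2) * dl k l := by
  by_cases hkl : k = l
  · subst hkl
    have h1 : ∀ a ∈ Finset.range (k + 1), ∑ b ∈ Finset.range (k + 1),
        (dl a b * dl (k - a) (k - b) + dl a (k - b) * dl (k - a) b) = 2 := by
      intro a ha
      have ha' : a ≤ k := by
        have := Finset.mem_range.1 ha
        omega
      rw [Finset.sum_add_distrib, Finset.sum_eq_single a, Finset.sum_eq_single (k - a)]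
      · have h2 : k - (k - a) = a := by omega
        rw [h2]
        simp [dl]
        norm_num
      · intro b hb hne
        have hb' : b ≤ k := by
          have := Finset.mem_range.1 hb
          omega
        have : ¬ (k - a = b) := fun h => hne h.symm
        simp [dl, this]
      · intro h
        exact absurd (Finset.mem_range.2 (by omega)) h
      · intro b hb hne
        have : ¬ (a = b) := fun h => hne h.symm
        simp [dl, this]
      · intro h
        exact absurd ha h
    rw [Finset.sum_congr rfl h1]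
    simp [dl]
    ring
  · have h1 : ∀ a ∈ Finset.range (k + 1), ∀ b ∈ Finset.range (l + 1),
        (dl a b * dl (k - a) (l - b) + dl a (l - b) * dl (k - a) b) = 0 := by
      intro a ha b hb
      have ha' := Finset.mem_range.1 ha
      have hb' := Finset.mem_range.1 hb
      have h2 : dl a b * dl (k - a) (l - b) = 0 := by
        unfold dl
        by_cases e1 : a = b
        · have e2 : ¬ (k - a = l - b) := by omega
          simp [e2]
        · simp [e1]
      have h3 : dl a (l - b) * dl (k - a) b = 0 := by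
        unfold dl
        by_cases e1 : a = l - b
        · have e2 : ¬ (k - a = b) := by omega
          simp [e2]
        · simp [e1]
      rw [h2, h3, add_zero]
    rw [Finset.sum_eq_zero fun a ha => Finset.sum_eq_zero fun b hb => h1 a ha b hb]
    simp [dl, hkl]

theorem stF (hD : Vale.Agent.P146.R2.H729.Tr.StD) : Vale.Agent.P146.R2.H729.Tr.StF := by
  intro L c
  filter_upwards [H432.ae_tp] with ω hω
  obtain ⟨A, hA⟩ : ∃ A : (N : ℕ) → Matrix (Fin N) (Fin N) ℝ, A = fun N => Wm N (Vale.Agent.P146.R3.H432.zz N ω) :=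
    ⟨_, rfl⟩
  have hAN : ∀ N, Wm N (Vale.Agent.P146.R3.H432.zz N ω) = A N := fun N => by rw [hA]
  have hsymm : ∀ N, (A N).IsSymm := fun N => by rw [← hAN]; exact Wm_isSymm _ _
  simp only [hAN]
  have hq : ∀ q : ℝ[X], Tendsto (fun N => (aeval (A N) q).trace / (N : ℝ)) atTop (𝓝 (Lam q)) := by
    intro q
    have := hω q
    refine this.congr fun N => ?_
    unfold tp
    rw [hAN]
  have t1 : ∀ a, Tendsto (fun N => (cheb a (A N)).trace / (N : ℝ)) atTop (𝓝 (dl a 0)) := by
    intro a
    have := hq (Sp a)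
    rw [Lam_Sp] at this
    refine this.congr fun N => ?_
    rw [← H432.cheb_eq_aeval]
  have t2 : ∀ a b, Tendsto (fun N => (cheb a (A N) * cheb b (A N)).trace / (N : ℝ)) atTop
      (𝓝 (dl a b)) := by
    intro a b
    have := hq (Sp a * Sp b)
    rw [Lam_Sp_mul] at this
    refine this.congr fun N => ?_
    rw [map_mul, ← H432.cheb_eq_aeval, ← H432.cheb_eq_aeval]
  have t4 : ∀ a b d e, ∃ r : ℝ, Tendsto (fun N => (cheb a (A N) * cheb b (A N) * cheb d (A N) *
      cheb e (A N)).trace / (N : ℝ)) atTop (𝓝 r) := by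
    intro a b d e
    refine ⟨_, (hq (Sp a * Sp b * Sp d * Sp e)).congr fun N => ?_⟩
    rw [map_mul, map_mul, map_mul, ← H432.cheb_eq_aeval, ← H432.cheb_eq_aeval,
      ← H432.cheb_eq_aeval, ← H432.cheb_eq_aeval]
  have hinv : Tendsto (fun N : ℕ => 1 / (N : ℝ)) atTop (𝓝 0) :=
    tendsto_const_div_atTop_nhds_zero_nat 1
  have t2' : ∀ a b, Tendsto (fun N => (cheb a (A N) * cheb b (A N)).trace / (N : ℝ) *
      (1 / (N : ℝ))) atTop (𝓝 0) := by
    intro a b
    have := (t2 a b).mul hinv
    rwa [mul_zero] at this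
  have t4' : ∀ a b d e, Tendsto (fun N => (cheb a (A N) * cheb b (A N) * cheb d (A N) *
      cheb e (A N)).trace / (N : ℝ) * (1 / (N : ℝ))) atTop (𝓝 0) := by
    intro a b d e
    obtain ⟨r, hr⟩ := t4 a b d e
    have := hr.mul hinv
    rwa [mul_zero] at this
  refine ⟨?_, ?_, ?_, ?_⟩
  · -- the first bracket
    have h1 : Tendsto (fun N : ℕ => ∑ k ∈ Finset.range L, c k * (1 / 2 *
        ((cheb 1 (A N) * cheb (k + 1) (A N)).trace / (N : ℝ)) - 1 / 2 *
        ∑ a ∈ Finset.range (k + 1), ((cheb a (A N)).trace / (N : ℝ) *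
          ((cheb (k - a) (A N)).trace / (N : ℝ)) +
          (cheb a (A N) * cheb (k - a) (A N)).trace / (N : ℝ) * (1 / (N : ℝ))))) atTop
        (𝓝 (∑ k ∈ Finset.range L, c k * (1 / 2 * dl 1 (k + 1) - 1 / 2 *
          ∑ a ∈ Finset.range (k + 1), (dl a 0 * dl (k - a) 0 + 0)))) := by
      refine tendsto_finset_sum _ fun k _ => ((((t2 1 (k + 1)).const_mul (1 / 2))).sub
        ((tendsto_finset_sum _ fun a _ => ?_).const_mul (1 / 2))).const_mul (c k)
      exact ((t1 a).mul (t1 (k - a))).add (t2' a (k - a))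
    have h2 : ∑ k ∈ Finset.range L, c k * (1 / 2 * dl 1 (k + 1) - 1 / 2 *
          ∑ a ∈ Finset.range (k + 1), (dl a 0 * dl (k - a) 0 + 0)) = 0 := by
      refine Finset.sum_eq_zero fun k _ => ?_
      simp only [add_zero]
      rw [sum_dl1]
      have : dl 1 (k + 1) = dl k 0 := by
        unfold dl
        by_cases hk : k = 0
        · simp [hk]
        · have : ¬ (1 = k + 1) := by omega
          simp [hk]
      rw [this]
      ring
    rw [h2] at h1
    refine h1.congr' ?_
    filter_upwards [eventually_ge_atTop 1] with N hN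
    have hN0 : (N : ℝ) ≠ 0 := by
      have : (0 : ℝ) < N := by exact_mod_cast hN
      exact this.ne'
    rw [(hD L c (A N) (hsymm N)).2.1]
    unfold hm
    rw [Finset.mul_sum, Matrix.trace_sum, sub_div, Finset.mul_sum, Finset.sum_div,
      Finset.mul_sum, Finset.sum_div, ← Finset.sum_sub_distrib]
    refine Finset.sum_congr rfl fun k _ => ?_
    rw [Matrix.mul_smul, Matrix.trace_smul, smul_eq_mul]
    have e1 : cheb 1 (A N) = A N := rfl
    rw [e1]
    have e2 : ∑ a ∈ Finset.range (k + 1), ((cheb a (A N)).trace / (N : ℝ) *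
          ((cheb (k - a) (A N)).trace / (N : ℝ)) +
          (cheb a (A N) * cheb (k - a) (A N)).trace / (N : ℝ) * (1 / (N : ℝ))) =
        (∑ a ∈ Finset.range (k + 1), ((cheb a (A N)).trace * (cheb (k - a) (A N)).trace +
          (cheb a (A N) * cheb (k - a) (A N)).trace)) / (N : ℝ) ^ 2 := by
      rw [Finset.sum_div]
      refine Finset.sum_congr rfl fun a _ => ?_
      field_simp
    rw [e2]
    field_simp
  · -- the second bracket
    have h1 : Tendsto (fun N : ℕ => 1 / 4 * ∑ k ∈ Finset.range L, ∑ l ∈ Finset.range L,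
        c k * c l * ((cheb (k + 1) (A N) * cheb (l + 1) (A N)).trace / (N : ℝ) +
        ∑ a ∈ Finset.range (k + 1), ∑ b ∈ Finset.range (l + 1),
          (((cheb a (A N) * cheb b (A N)).trace / (N : ℝ) *
              ((cheb (k - a) (A N) * cheb (l - b) (A N)).trace / (N : ℝ)) +
            (cheb a (A N) * cheb (l - b) (A N)).trace / (N : ℝ) *
              ((cheb (k - a) (A N) * cheb b (A N)).trace / (N : ℝ))) +
            ((cheb a (A N) * cheb b (A N) * cheb (k - a) (A N) *
              cheb (l - b) (A N)).trace / (N : ℝ) * (1 / (N : ℝ)) +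
            (cheb a (A N) * cheb (l - b) (A N) * cheb (k - a) (A N) *
              cheb b (A N)).trace / (N : ℝ) * (1 / (N : ℝ)))))) atTop
        (𝓝 (1 / 4 * ∑ k ∈ Finset.range L, ∑ l ∈ Finset.range L,
          c k * c l * (dl (k + 1) (l + 1) +
          ∑ a ∈ Finset.range (k + 1), ∑ b ∈ Finset.range (l + 1),
            ((dl a b * dl (k - a) (l - b) + dl a (l - b) * dl (k - a) b) + (0 + 0))))) := by
      refine (tendsto_finset_sum _ fun k _ => tendsto_finset_sum _ fun l _ =>
        ((t2 (k + 1) (l + 1)).add (tendsto_finset_sum _ fun a _ =>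
          tendsto_finset_sum _ fun b _ => ?_)).const_mul (c k * c l)).const_mul (1 / 4)
      exact (((t2 a b).mul (t2 (k - a) (l - b))).add ((t2 a (l - b)).mul (t2 (k - a) b))).add
        ((t4' a b (k - a) (l - b)).add (t4' a (l - b) (k - a) b))
    have h2 : 1 / 4 * ∑ k ∈ Finset.range L, ∑ l ∈ Finset.range L,
          c k * c l * (dl (k + 1) (l + 1) +
          ∑ a ∈ Finset.range (k + 1), ∑ b ∈ Finset.range (l + 1),
            ((dl a b * dl (k - a) (l - b) + dl a (l - b) * dl (k - a) b) + (0 + 0))) =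
        1 / 4 * ∑ k ∈ Finset.range L, (2 * (k : ℝ) + 3) * c k ^ 2 := by
      congr 1
      refine Finset.sum_congr rfl fun k hk => ?_
      simp only [add_zero]
      have h3 : ∀ l ∈ Finset.range L, c k * c l * (dl (k + 1) (l + 1) +
          ∑ a ∈ Finset.range (k + 1), ∑ b ∈ Finset.range (l + 1),
            (dl a b * dl (k - a) (l - b) + dl a (l - b) * dl (k - a) b)) =
          if l = k then (2 * (k : ℝ) + 3) * c k ^ 2 else 0 := by
        intro l _
        rw [sum_dl2]
        by_cases hl : l = k
        · subst hl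
          simp [dl]
          ring
        · have : ¬ (k = l) := fun h => hl h.symm
          simp [dl, hl, this]
      rw [Finset.sum_congr rfl h3, Finset.sum_ite_eq' (Finset.range L) k, if_pos hk]
    rw [h2] at h1
    refine h1.congr' ?_
    filter_upwards [eventually_ge_atTop 1] with N hN
    have hN0 : (N : ℝ) ≠ 0 := by
      have : (0 : ℝ) < N := by exact_mod_cast hN
      exact this.ne'
    rw [(hD L c (A N) (hsymm N)).2.2]
    have e0 : (hm L c (A N) * hm L c (A N)).trace = ∑ k ∈ Finset.range L,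
        ∑ l ∈ Finset.range L, c k * c l * (cheb (k + 1) (A N) * cheb (l + 1) (A N)).trace := by
      unfold hm
      rw [Finset.sum_mul, Matrix.trace_sum]
      refine Finset.sum_congr rfl fun k _ => ?_
      rw [Finset.mul_sum, Matrix.trace_sum]
      refine Finset.sum_congr rfl fun l _ => ?_
      rw [Matrix.smul_mul, Matrix.mul_smul, Matrix.trace_smul, Matrix.trace_smul, smul_eq_mul,
        smul_eq_mul, mul_assoc]
    rw [e0, add_div]
    have e1 : (N : ℝ) / 4 * (∑ k ∈ Finset.range L, ∑ l ∈ Finset.range L,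
        c k * c l * (cheb (k + 1) (A N) * cheb (l + 1) (A N)).trace) / (N : ℝ) ^ 2 =
        1 / 4 * ∑ k ∈ Finset.range L, ∑ l ∈ Finset.range L,
        c k * c l * ((cheb (k + 1) (A N) * cheb (l + 1) (A N)).trace / (N : ℝ)) := by
      have e2 : ∀ S : ℝ, (N : ℝ) / 4 * S / (N : ℝ) ^ 2 = 1 / 4 * (S / (N : ℝ)) := by
        intro S
        field_simp
      rw [e2, Finset.sum_div]
      congr 1
      refine Finset.sum_congr rfl fun k _ => ?_
      rw [Finset.sum_div]
      refine Finset.sum_congr rfl fun l _ => ?_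
      rw [mul_div_assoc]
    rw [e1, mul_div_assoc, ← mul_add, Finset.sum_div, ← Finset.sum_add_distrib]
    congr 1
    refine Finset.sum_congr rfl fun k _ => ?_
    rw [Finset.sum_div, ← Finset.sum_add_distrib]
    refine Finset.sum_congr rfl fun l _ => ?_
    rw [mul_div_assoc, ← mul_add, Finset.sum_div]
    congr 2
    refine Finset.sum_congr rfl fun a _ => ?_
    rw [Finset.sum_div]
    refine Finset.sum_congr rfl fun b _ => ?_
    field_simp
    ring
  · have := t1 1
    have h0 : dl 1 0 = 0 := by simp [dl]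
    rw [h0] at this
    exact this
  · have h1 : Tendsto (fun N : ℕ => ∑ k ∈ Finset.range L,
        c k * ((cheb (k + 1) (A N)).trace / (N : ℝ))) atTop
        (𝓝 (∑ k ∈ Finset.range L, c k * dl (k + 1) 0)) :=
      tendsto_finset_sum _ fun k _ => (t1 (k + 1)).const_mul (c k)
    have h2 : ∑ k ∈ Finset.range L, c k * dl (k + 1) 0 = 0 := by
      refine Finset.sum_eq_zero fun k _ => ?_
      simp [dl]
    rw [h2] at h1
    refine h1.congr fun N => ?_
    unfold hm
    rw [Matrix.trace_sum, Finset.sum_div]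
    refine Finset.sum_congr rfl fun k _ => ?_
    rw [Matrix.trace_smul, smul_eq_mul, mul_div_assoc]

end Vale.Agent.P146.R2.H453.TrF
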