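import Vale.Agent.P146.R2.H453.Phys
import Vale.Agent.P146.R2.H501.RowE
import Vale.Agent.P146.R2.H729.TrGen
import Vale.Agent.P146.R2.H729.XP
import Vale.Agent.P146.R2.H749.XK
import Vale.Agent.P146.R2.H144.XH1
import Vale.Agent.P146.R2.H144.XJ
import Vale.Agent.P146.R2.H952.XH2
import Vale.Agent.P146.R2.H952.KP
import Vale.Agent.P146.R2.H793.TrJ

set_option linter.all false

/-!
# P146: the lower bound of the lower tail with the exponent `12/5`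
-/

open MeasureTheory ProbabilityTheory Matrix Filter Topology

namespace Vale.Agent.P146.R2.H453.LowPhys

open Vale.Agent.P166 Vale.Agent.P146 Vale.Agent.P146.H605

/-- the cost of the Fejer polynomial -/
lemma cost_le {L : ℕ} (hL : 2 ≤ L) {δ : ℝ} (hδ : 0 ≤ δ) {c : ℕ → ℝ}
    (hc : ∀ k, 0 ≤ c k ∧ c k ≤ 2 * (δ / (L : ℝ) ^ 4)) :
    1 / 4 * ∑ k ∈ Finset.range L, (2 * (k : ℝ) + 3) * c k ^ 2 ≤ 2 * δ ^ 2 / (L : ℝ) ^ 6 := by
  have hL2 : (2 : ℝ) ≤ L := by exact_mod_cast hL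
  have hL0 : (0 : ℝ) < L := by linarith
  obtain ⟨γ, hγ⟩ : ∃ γ, γ = δ / (L : ℝ) ^ 4 := ⟨_, rfl⟩
  have hγ0 : 0 ≤ γ := by rw [hγ]; positivity
  have h1 : ∑ k ∈ Finset.range L, (2 * (k : ℝ) + 3) * c k ^ 2 ≤
      ∑ k ∈ Finset.range L, (2 * (k : ℝ) + 3) * (4 * γ ^ 2) := by
    refine Finset.sum_le_sum fun k _ => mul_le_mul_of_nonneg_left ?_ (by positivity)
    have h2 := hc k
    rw [← hγ] at h2
    calc c k ^ 2 ≤ (2 * γ) ^ 2 := pow_le_pow_left₀ h2.1 h2.2 2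
      _ = _ := by ring
  have h3 : ∀ n : ℕ, ∑ k ∈ Finset.range n, (2 * (k : ℝ) + 3) = (n : ℝ) ^ 2 + 2 * n := by
    intro n
    induction n with
    | zero => simp
    | succ n ih =>
      rw [Finset.sum_range_succ, ih]
      push_cast
      ring
  rw [← Finset.sum_mul, h3] at h1
  have h4 : (L : ℝ) ^ 2 + 2 * L ≤ 2 * (L : ℝ) ^ 2 := by nlinarith
  have h5 : ((L : ℝ) ^ 2 + 2 * L) * (4 * γ ^ 2) ≤ 2 * (L : ℝ) ^ 2 * (4 * γ ^ 2) :=
    mul_le_mul_of_nonneg_right h4 (by positivity)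
  have h6 : 2 * (L : ℝ) ^ 2 * (4 * γ ^ 2) = 4 * (2 * δ ^ 2 / (L : ℝ) ^ 6) := by
    rw [hγ]
    field_simp
  linarith

/-- **The lower bound with the exponent `12/5`.** -/
theorem low_phys {β : ℝ} (hβ : 1 < β) {p : ℝ}
    (hp : Tendsto (fun n : ℕ => (∫ g, freeEnergy n β g ∂(disorder n)) / n) atTop (𝓝 p)) :
    ∃ C δ : ℝ, 0 < C ∧ 0 < δ ∧ ∀ s : ℝ, 0 < s → s ≤ δ → ∀ᶠ n : ℕ in atTop,
      Real.exp (-(C * s ^ (12 / 5 : ℝ) * (n : ℝ) ^ 2)) ≤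
        (disorder n).real {g | freeEnergy n β g ≤ n * (p - s)} := by
  have hβ0 : 0 < β := by linarith
  -- the limit
  obtain ⟨x, -, -, hlim⟩ := H793.Tr.stJ hβ
  have hpP : p = Real.log 2 + Sh.P0 β := tendsto_nhds_unique hp hlim
  -- the norms
  obtain ⟨κ₀, hκ₀, hE⟩ := H501.RowE.rowE
  obtain ⟨δ, hδ⟩ : ∃ δ, δ = min κ₀ 1 := ⟨_, rfl⟩
  have hδ0 : 0 < δ := by rw [hδ]; exact lt_min hκ₀ one_pos
  have hδ1 : δ ≤ 1 := by rw [hδ]; exact min_le_right _ _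
  have hδκ : δ ≤ κ₀ := by rw [hδ]; exact min_le_left _ _
  obtain ⟨c3, L0, hc3, hL02, hkp⟩ := H952.X.kp H749.X.stK (H952.X.stH2 H144.X.stH1) H144.X.stJ
    H729.X.stP β hβ δ hδ0 hδ1
  refine H453.Phys.phys_of (f := fun n s => (disorder n).real {g | freeEnergy n β g ≤ n * (p - s)})
    (fun n s s' hs => ?_) (c := c3 / 2) (C := 4 * δ ^ 2) (by positivity) (by positivity)
    (L₀ := L0) (fun L hL _ => ?_)
  · have : IsProbabilityMeasure (disorder n) := by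
      unfold disorder
      infer_instance
    refine measureReal_mono fun g hg => ?_
    simp only [Set.mem_ofPred_eq] at hg ⊢
    refine hg.trans (mul_le_mul_of_nonneg_left (by linarith) (Nat.cast_nonneg n))
  · obtain ⟨c, hc, hpr⟩ := hkp L hL
    have hL2 : 2 ≤ L := hL02.trans hL
    have hL2' : (2 : ℝ) ≤ L := by exact_mod_cast hL2
    have hL0 : (0 : ℝ) < L := by linarith
    have hγ : δ / (L : ℝ) ^ 4 * (L : ℝ) ^ 4 ≤ κ₀ := by
      rw [div_mul_cancel₀ _ (by positivity)]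
      exact hδκ
    have hadm : H729.Tr.Adm L c ((1 + 1 / (L : ℝ)) + (1 + 1 / (L : ℝ))⁻¹) := by
      intro N A B hA hB nA nB
      refine hE L (by omega) (δ / (L : ℝ) ^ 4) (by positivity) hγ c (fun k => ?_) N A B hA hB nA nB
      rw [abs_of_nonneg (hc k).1]
      exact (hc k).2
    have hR : 2 < (1 + 1 / (L : ℝ)) + (1 + 1 / (L : ℝ))⁻¹ := by
      have h1 : 0 < 1 / (L : ℝ) := by positivity
      obtain ⟨e, he⟩ : ∃ e, e = 1 / (L : ℝ) := ⟨_, rfl⟩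
      rw [← he] at h1 ⊢
      have h2 : (1 + e) + (1 + e)⁻¹ - 2 = e ^ 2 / (1 + e) := by
        field_simp
        ring
      have h3 : 0 < e ^ 2 / (1 + e) := by positivity
      linarith
    have hQ : 1 / 4 * ∑ k ∈ Finset.range L, (2 * (k : ℝ) + 3) * c k ^ 2 <
        4 * δ ^ 2 * (L : ℝ) ^ (-6 : ℝ) := by
      have h1 := cost_le hL2 hδ0.le hc
      have h2 : (L : ℝ) ^ (-6 : ℝ) = 1 / (L : ℝ) ^ 6 := by
        rw [Real.rpow_neg hL0.le, one_div]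
        congr 1
        exact_mod_cast Real.rpow_natCast (L : ℝ) 6
      rw [h2]
      have h3 : 0 < δ ^ 2 / (L : ℝ) ^ 6 := by positivity
      have h4 : 2 * δ ^ 2 / (L : ℝ) ^ 6 = 2 * (δ ^ 2 / (L : ℝ) ^ 6) := by ring
      have h5 : 4 * δ ^ 2 * (1 / (L : ℝ) ^ 6) = 4 * (δ ^ 2 / (L : ℝ) ^ 6) := by ring
      rw [h5]
      linarith
    have hκ : 0 < c3 / 2 * (L : ℝ) ^ (-(5 / 2) : ℝ) := by positivity
    have h := H729.Tr.low_gen hβ0 L c hR hadm hpr hQ hκ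
    filter_upwards [h] with n hn
    have e : Real.log 2 + (Sh.P0 β - c3 * (L : ℝ) ^ (-(5 / 2) : ℝ)) +
        c3 / 2 * (L : ℝ) ^ (-(5 / 2) : ℝ) = p - c3 / 2 * (L : ℝ) ^ (-(5 / 2) : ℝ) := by
      rw [hpP]
      ring
    rw [e] at hn
    exact hn

end Vale.Agent.P146.R2.H453.LowPhys
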