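import Vale.Agent.P146.R2.Def

/-!
# P146: norm bounds for `fr`, `nf`, `dn` and the error of the path formula
-/

open Finset

namespace Vale.Agent.P146.H453

variable {n : ℕ}

lemma wcs {ι : Type*} (s : Finset ι) {w : ι → ℝ} (hw : ∀ i ∈ s, 0 ≤ w i) (f g : ι → ℝ) :
    (∑ i ∈ s, w i * (f i * g i)) ^ 2 ≤ (∑ i ∈ s, w i * f i ^ 2) * ∑ i ∈ s, w i * g i ^ 2 := by
  have h := Finset.sum_mul_sq_le_sq_mul_sq s (fun i => Real.sqrt (w i) * f i)
    (fun i => Real.sqrt (w i) * g i)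
  have e1 : ∑ i ∈ s, Real.sqrt (w i) * f i * (Real.sqrt (w i) * g i) =
      ∑ i ∈ s, w i * (f i * g i) := by
    refine Finset.sum_congr rfl fun i hi => ?_
    rw [show Real.sqrt (w i) * f i * (Real.sqrt (w i) * g i) =
      (Real.sqrt (w i) * Real.sqrt (w i)) * (f i * g i) by ring, Real.mul_self_sqrt (hw i hi)]
  have e2 : ∀ f : ι → ℝ, ∑ i ∈ s, (Real.sqrt (w i) * f i) ^ 2 = ∑ i ∈ s, w i * f i ^ 2 := by
    intro f
    refine Finset.sum_congr rfl fun i hi => ?_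
    rw [mul_pow, Real.sq_sqrt (hw i hi)]
  rw [e1, e2, e2] at h
  exact h

lemma wtri {ι : Type*} (s : Finset ι) {w : ι → ℝ} (hw : ∀ i ∈ s, 0 ≤ w i) (f g : ι → ℝ) :
    Real.sqrt (∑ i ∈ s, w i * (f i + g i) ^ 2) ≤
      Real.sqrt (∑ i ∈ s, w i * f i ^ 2) + Real.sqrt (∑ i ∈ s, w i * g i ^ 2) := by
  set a := ∑ i ∈ s, w i * f i ^ 2 with ha
  set b := ∑ i ∈ s, w i * g i ^ 2 with hb
  have ha0 : 0 ≤ a := Finset.sum_nonneg fun i hi => mul_nonneg (hw i hi) (sq_nonneg _)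
  have hb0 : 0 ≤ b := Finset.sum_nonneg fun i hi => mul_nonneg (hw i hi) (sq_nonneg _)
  have h1 : ∑ i ∈ s, w i * (f i + g i) ^ 2 = a + b + 2 * ∑ i ∈ s, w i * (f i * g i) := by
    rw [ha, hb, ← Finset.sum_add_distrib, Finset.mul_sum, ← Finset.sum_add_distrib]
    refine Finset.sum_congr rfl fun i _ => ?_
    ring
  have h2 : ∑ i ∈ s, w i * (f i * g i) ≤ Real.sqrt a * Real.sqrt b := by
    rw [← Real.sqrt_mul ha0]
    exact Real.le_sqrt_of_sq_le (wcs s hw f g)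
  rw [h1]
  refine Real.sqrt_le_iff.2 ⟨by positivity, ?_⟩
  have h3 := Real.sq_sqrt ha0
  have h4 := Real.sq_sqrt hb0
  nlinarith

lemma nv_nonneg {t : ℝ} (ht : 0 ≤ t) (L : ℕ) (A : Fam n) (v : Fin n) : 0 ≤ nv t L A v :=
  Finset.sum_nonneg fun α _ => mul_nonneg (wt_nonneg ht α) (sq_nonneg _)

lemma ns_nonneg {t : ℝ} (ht : 0 ≤ t) (L : ℕ) (A : Fam n) : 0 ≤ ns t L A :=
  Finset.sum_nonneg fun v _ => nv_nonneg ht L A v

lemma nv_le_ns {t : ℝ} (ht : 0 ≤ t) (L : ℕ) (A : Fam n) (v : Fin n) : nv t L A v ≤ ns t L A :=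
  Finset.single_le_sum (f := fun v => nv t L A v) (fun v _ => nv_nonneg ht L A v) (mem_univ v)

lemma nv_mono {t : ℝ} (ht : 0 ≤ t) {L M : ℕ} (h : L ≤ M) (A : Fam n) (v : Fin n) :
    nv t L A v ≤ nv t M A v :=
  sum_le_sum_of_subset_of_nonneg (ML_mono h) fun α _ _ =>
    mul_nonneg (wt_nonneg ht α) (sq_nonneg _)

lemma ns_mono {t : ℝ} (ht : 0 ≤ t) {L M : ℕ} (h : L ≤ M) (A : Fam n) : ns t L A ≤ ns t M A :=
  Finset.sum_le_sum fun v _ => nv_mono ht h A v

lemma sqrt_nv_add {t : ℝ} (ht : 0 ≤ t) (L : ℕ) (A B : Fam n) (v : Fin n) :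
    Real.sqrt (nv t L (A + B) v) ≤ Real.sqrt (nv t L A v) + Real.sqrt (nv t L B v) :=
  wtri (ML n L) (fun α _ => wt_nonneg ht α) (A v) (B v)

lemma ns_eq (t : ℝ) (L : ℕ) (A : Fam n) :
    ns t L A = ∑ p ∈ (univ : Finset (Fin n)) ×ˢ ML n L, wt t p.2 * A p.1 p.2 ^ 2 := by
  rw [Finset.sum_product]
  rfl

lemma sqrt_ns_add {t : ℝ} (ht : 0 ≤ t) (L : ℕ) (A B : Fam n) :
    Real.sqrt (ns t L (A + B)) ≤ Real.sqrt (ns t L A) + Real.sqrt (ns t L B) := by
  rw [ns_eq, ns_eq, ns_eq]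
  exact wtri ((univ : Finset (Fin n)) ×ˢ ML n L) (w := fun p : Fin n × MI n => wt t p.2)
    (fun p _ => wt_nonneg ht p.2) (fun p : Fin n × MI n => A p.1 p.2)
    (fun p : Fin n × MI n => B p.1 p.2)

lemma nv_neg (t : ℝ) (L : ℕ) (A : Fam n) (v : Fin n) : nv t L (-A) v = nv t L A v := by
  unfold nv
  simp

lemma ns_neg (t : ℝ) (L : ℕ) (A : Fam n) : ns t L (-A) = ns t L A := by
  unfold ns
  simp only [nv_neg]

lemma sqrt_nv_sub {t : ℝ} (ht : 0 ≤ t) (L : ℕ) (A B : Fam n) (v : Fin n) :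
    Real.sqrt (nv t L (A - B) v) ≤ Real.sqrt (nv t L A v) + Real.sqrt (nv t L B v) := by
  have := sqrt_nv_add ht L A (-B) v
  rwa [nv_neg, ← sub_eq_add_neg] at this

lemma sqrt_ns_sub {t : ℝ} (ht : 0 ≤ t) (L : ℕ) (A B : Fam n) :
    Real.sqrt (ns t L (A - B)) ≤ Real.sqrt (ns t L A) + Real.sqrt (ns t L B) := by
  have := sqrt_ns_add ht L A (-B)
  rwa [ns_neg, ← sub_eq_add_neg] at this

/-- Cauchy-Schwarz with the normalisation `n^{-1/2}` -/
lemma cs_sum (n : ℕ) (s : Finset (Pair n)) (x : Pair n → ℝ) :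
    ((Real.sqrt n)⁻¹ * ∑ e ∈ s, x e) ^ 2 ≤ (s.card : ℝ) / n * ∑ e ∈ s, x e ^ 2 := by
  have h := sq_sum_le_card_mul_sum_sq (s := s) (f := x)
  rw [mul_pow, inv_pow, Real.sq_sqrt (Nat.cast_nonneg n)]
  calc (n : ℝ)⁻¹ * (∑ e ∈ s, x e) ^ 2 ≤ (n : ℝ)⁻¹ * ((s.card : ℝ) * ∑ e ∈ s, x e ^ 2) :=
        mul_le_mul_of_nonneg_left h (by positivity)
    _ = (s.card : ℝ) / n * ∑ e ∈ s, x e ^ 2 := by ring

/-- the common estimate: an edge is added -/
lemma add_edge {t : ℝ} (L : ℕ) (K : Fin n → MI n → ℝ) :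
    ∑ v, ∑ e ∈ st v, t * ∑ α ∈ ML n L, wt t α * K (ot v e) (α + un e) =
      ∑ i, ∑ β ∈ ML n (L + 1), wt t β * (deg β i * K i β) := by
  have h1 : ∀ v : Fin n, ∀ e ∈ st v, t * ∑ α ∈ ML n L, wt t α * K (ot v e) (α + un e) =
      ∑ β ∈ ML n (L + 1), wt t β * β e * K (ot v e) β := fun v e _ => cv t L e (K (ot v e))
  rw [Finset.sum_congr rfl fun v _ => Finset.sum_congr rfl (h1 v)]
  rw [sum_swap (fun i e => ∑ β ∈ ML n (L + 1), wt t β * β e * K i β)]
  refine Finset.sum_congr rfl fun i _ => ?_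
  rw [Finset.sum_comm]
  refine Finset.sum_congr rfl fun β _ => ?_
  unfold deg
  push_cast
  rw [Finset.sum_mul, Finset.mul_sum]
  refine Finset.sum_congr rfl fun e _ => ?_
  ring

lemma fr_norm {t : ℝ} (ht : 0 ≤ t) (L : ℕ) (Q : Finset (Fin n)) (A : Fam n) :
    t * ns t L (fr Q A) ≤ ns t (L + 1) A := by
  set K : Fin n → MI n → ℝ := fun i β => if deg β i = 1 then A i β ^ 2 else 0 with hK
  have hK0 : ∀ i β, 0 ≤ K i β := by
    intro i β
    simp only [hK]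
    split_ifs
    · exact sq_nonneg _
    · exact le_refl _
  have h1 : t * ns t L (fr Q A) ≤
      ∑ v, ∑ e ∈ st v, t * ∑ α ∈ ML n L, wt t α * K (ot v e) (α + un e) := by
    unfold ns
    rw [Finset.mul_sum]
    refine Finset.sum_le_sum fun v _ => ?_
    unfold nv
    rw [← Finset.mul_sum, Finset.sum_comm]
    refine mul_le_mul_of_nonneg_left ?_ ht
    refine Finset.sum_le_sum fun α _ => ?_
    rw [← Finset.mul_sum]
    refine mul_le_mul_of_nonneg_left ?_ (wt_nonneg ht α)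
    have hn : 0 < n := lt_of_le_of_lt (Nat.zero_le _) v.2
    calc fr Q A v α ^ 2 ≤ ((fs Q v α).card : ℝ) / n * ∑ e ∈ fs Q v α, A (ot v e) (α + un e) ^ 2 :=
          cs_sum n _ _
      _ ≤ 1 * ∑ e ∈ fs Q v α, A (ot v e) (α + un e) ^ 2 := by
          refine mul_le_mul_of_nonneg_right ?_ (Finset.sum_nonneg fun _ _ => sq_nonneg _)
          rw [div_le_one (by exact_mod_cast hn)]
          exact_mod_cast (Finset.card_le_card (fs_sub Q v α)).trans (card_st_le v)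
      _ = ∑ e ∈ fs Q v α, K (ot v e) (α + un e) := by
          rw [one_mul]
          refine Finset.sum_congr rfl fun e he => ?_
          rw [fs, mem_filter] at he
          simp only [hK]
          rw [if_pos]
          rw [deg_add, he.2.2, deg_un_of_mem (st_ot v e)]
      _ ≤ ∑ e ∈ st v, K (ot v e) (α + un e) :=
          sum_le_sum_of_subset_of_nonneg (fs_sub Q v α) fun e _ _ => hK0 _ _
  refine h1.trans ?_
  rw [add_edge]
  unfold ns nv
  refine Finset.sum_le_sum fun i _ => Finset.sum_le_sum fun β _ => ?_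
  refine mul_le_mul_of_nonneg_left ?_ (wt_nonneg ht β)
  simp only [hK]
  split_ifs with h
  · rw [h]
    simp
  · simp
    exact sq_nonneg _

lemma nf_norm {t : ℝ} (ht : 0 ≤ t) (L : ℕ) (Q : Finset (Fin n)) (A : Fam n) :
    t * ns t L (nf Q A) ≤ ((2 * L + Q.card) * (L + 1) / n : ℝ) * ns t (L + 1) A := by
  have h1 : t * ns t L (nf Q A) ≤ ((2 * L + Q.card) / n : ℝ) *
      ∑ v, ∑ e ∈ st v, t * ∑ α ∈ ML n L, wt t α * A (ot v e) (α + un e) ^ 2 := by
    unfold ns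
    rw [Finset.mul_sum, Finset.mul_sum]
    refine Finset.sum_le_sum fun v _ => ?_
    unfold nv
    rw [← Finset.mul_sum, Finset.sum_comm, ← mul_assoc, mul_comm _ t, mul_assoc]
    refine mul_le_mul_of_nonneg_left ?_ ht
    rw [Finset.mul_sum]
    refine Finset.sum_le_sum fun α hα => ?_
    rw [← Finset.mul_sum, ← mul_assoc, mul_comm _ (wt t α), mul_assoc]
    refine mul_le_mul_of_nonneg_left ?_ (wt_nonneg ht α)
    rw [mem_ML] at hα
    calc nf Q A v α ^ 2 ≤ ((st v \ fs Q v α).card : ℝ) / n *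
          ∑ e ∈ st v \ fs Q v α, A (ot v e) (α + un e) ^ 2 := cs_sum n _ _
      _ ≤ (2 * L + Q.card : ℝ) / n * ∑ e ∈ st v, A (ot v e) (α + un e) ^ 2 := by
          have h2 : ((st v \ fs Q v α).card : ℝ) ≤ 2 * L + Q.card := by
            have := card_nf Q v α
            have h3 : (st v \ fs Q v α).card ≤ 2 * L + Q.card := by omega
            exact_mod_cast h3
          gcongr
          exact sdiff_subset
  refine h1.trans ?_
  rw [add_edge (K := fun i β => A i β ^ 2)]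
  rw [show ((2 * L + Q.card) * (L + 1) / n : ℝ) = (2 * L + Q.card : ℝ) / n * (L + 1) by ring,
    mul_assoc]
  refine mul_le_mul_of_nonneg_left ?_ (by positivity)
  unfold ns nv
  rw [Finset.mul_sum]
  refine Finset.sum_le_sum fun i _ => ?_
  rw [Finset.mul_sum]
  refine Finset.sum_le_sum fun β hβ => ?_
  rw [show ((L : ℝ) + 1) * (wt t β * A i β ^ 2) = wt t β * (((L : ℝ) + 1) * A i β ^ 2) by ring]
  refine mul_le_mul_of_nonneg_left ?_ (wt_nonneg ht β)
  refine mul_le_mul_of_nonneg_right ?_ (sq_nonneg _)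
  rw [mem_ML] at hβ
  have := deg_le β i
  have h3 : deg β i ≤ L + 1 := by omega
  exact_mod_cast h3

lemma dn_norm {t : ℝ} (ht : 0 ≤ t) (L : ℕ) (A : Fam n) (v : Fin n) :
    nv t L (dn A) v ≤ (t * L / n : ℝ) * ns t L A := by
  have h1 : nv t L (dn A) v ≤ (L / n : ℝ) *
      ∑ e ∈ st v, ∑ α ∈ ML n L, wt t α * α e * A (ot v e) (α - un e) ^ 2 := by
    unfold nv
    rw [Finset.sum_comm, Finset.mul_sum]
    refine Finset.sum_le_sum fun α hα => ?_
    have h2 : dn A v α ^ 2 ≤ (L / n : ℝ) * ∑ e ∈ st v, (α e : ℝ) * A (ot v e) (α - un e) ^ 2 := by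
      unfold dn
      rw [mul_pow, inv_pow, Real.sq_sqrt (Nat.cast_nonneg n)]
      have h3 := wcs (st v) (w := fun e => (α e : ℝ)) (fun e _ => Nat.cast_nonneg _)
        (fun _ => 1) (fun e => A (ot v e) (α - un e))
      simp only [one_mul, one_pow, mul_one] at h3
      have h4 : ∑ e ∈ st v, (α e : ℝ) ≤ L := by
        rw [mem_ML] at hα
        have := deg_le α v
        have h5 : deg α v ≤ L := by omega
        have h6 : ((deg α v : ℕ) : ℝ) ≤ L := by exact_mod_cast h5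
        unfold deg at h6
        push_cast at h6
        exact h6
      have h7 : 0 ≤ ∑ e ∈ st v, (α e : ℝ) * A (ot v e) (α - un e) ^ 2 :=
        Finset.sum_nonneg fun e _ => mul_nonneg (Nat.cast_nonneg _) (sq_nonneg _)
      calc (n : ℝ)⁻¹ * (∑ e ∈ st v, (α e : ℝ) * A (ot v e) (α - un e)) ^ 2
          ≤ (n : ℝ)⁻¹ * ((∑ e ∈ st v, (α e : ℝ)) *
            ∑ e ∈ st v, (α e : ℝ) * A (ot v e) (α - un e) ^ 2) :=
            mul_le_mul_of_nonneg_left h3 (by positivity)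
        _ ≤ (n : ℝ)⁻¹ * ((L : ℝ) * ∑ e ∈ st v, (α e : ℝ) * A (ot v e) (α - un e) ^ 2) := by
            refine mul_le_mul_of_nonneg_left ?_ (by positivity)
            exact mul_le_mul_of_nonneg_right h4 h7
        _ = (L / n : ℝ) * ∑ e ∈ st v, (α e : ℝ) * A (ot v e) (α - un e) ^ 2 := by ring
    calc wt t α * dn A v α ^ 2
        ≤ wt t α * ((L / n : ℝ) * ∑ e ∈ st v, (α e : ℝ) * A (ot v e) (α - un e) ^ 2) :=
          mul_le_mul_of_nonneg_left h2 (wt_nonneg ht α)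
      _ = (L / n : ℝ) * ∑ e ∈ st v, wt t α * α e * A (ot v e) (α - un e) ^ 2 := by
          rw [Finset.mul_sum, Finset.mul_sum, Finset.mul_sum]
          refine Finset.sum_congr rfl fun e _ => ?_
          ring
  refine h1.trans ?_
  have h5 : ∑ e ∈ st v, ∑ α ∈ ML n L, wt t α * α e * A (ot v e) (α - un e) ^ 2 ≤
      t * ns t L A := by
    calc ∑ e ∈ st v, ∑ α ∈ ML n L, wt t α * α e * A (ot v e) (α - un e) ^ 2
        ≤ ∑ e ∈ st v, t * nv t L A (ot v e) := by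
          refine Finset.sum_le_sum fun e _ => ?_
          refine (cv_le ht L e (H := fun α => A (ot v e) (α - un e) ^ 2)
            fun _ => sq_nonneg _).trans ?_
          refine mul_le_mul_of_nonneg_left ?_ ht
          unfold nv
          refine Finset.sum_le_sum fun α _ => ?_
          simp only [add_un_sub]
          exact le_refl _
      _ = ∑ i ∈ univ.erase v, t * nv t L A i := sum_st_ot v fun i => t * nv t L A i
      _ ≤ ∑ i, t * nv t L A i :=
          sum_le_sum_of_subset_of_nonneg (erase_subset _ _) fun i _ _ =>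
            mul_nonneg ht (nv_nonneg ht L A i)
      _ = t * ns t L A := by rw [← Finset.mul_sum]; rfl
  calc (L / n : ℝ) * ∑ e ∈ st v, ∑ α ∈ ML n L, wt t α * α e * A (ot v e) (α - un e) ^ 2
      ≤ (L / n : ℝ) * (t * ns t L A) := mul_le_mul_of_nonneg_left h5 (by positivity)
    _ = (t * L / n : ℝ) * ns t L A := by ring

end Vale.Agent.P146.H453
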