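import Vale.Agent.P146.R2.H453.Comb

/-!
# P146: the operators `up`, `dn`, `fr`, `nf` on coefficient families
-/

open Finset

namespace Vale.Agent.P146.H453

variable {n : ℕ}

/-- families of coefficients, indexed by a vertex and a multi-index -/
abbrev Fam (n : ℕ) : Type := Fin n → MI n → ℝ

/-- adding an edge at `v` -/
noncomputable def up (A : Fam n) : Fam n := fun v α =>
  (Real.sqrt n)⁻¹ * ∑ e ∈ st v, A (ot v e) (α + un e)

/-- removing an edge at `v` -/
noncomputable def dn (A : Fam n) : Fam n := fun v α =>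
  (Real.sqrt n)⁻¹ * ∑ e ∈ st v, (α e : ℝ) * A (ot v e) (α - un e)

/-- edges at `v` whose other endpoint is neither in `Q` nor used by `α` -/
def fs (Q : Finset (Fin n)) (v : Fin n) (α : MI n) : Finset (Pair n) :=
  (st v).filter fun e => ot v e ∉ Q ∧ deg α (ot v e) = 0

/-- adding a fresh edge at `v` -/
noncomputable def fr (Q : Finset (Fin n)) (A : Fam n) : Fam n := fun v α =>
  (Real.sqrt n)⁻¹ * ∑ e ∈ fs Q v α, A (ot v e) (α + un e)

/-- adding a non-fresh edge at `v` -/
noncomputable def nf (Q : Finset (Fin n)) (A : Fam n) : Fam n := fun v α =>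
  (Real.sqrt n)⁻¹ * ∑ e ∈ st v \ fs Q v α, A (ot v e) (α + un e)

lemma fs_sub (Q : Finset (Fin n)) (v : Fin n) (α : MI n) : fs Q v α ⊆ st v := filter_subset _ _

lemma up_eq (Q : Finset (Fin n)) (A : Fam n) : up A = fr Q A + nf Q A := by
  funext v α
  simp only [Pi.add_apply]
  unfold up fr nf
  rw [← mul_add]
  congr 1
  rw [add_comm]
  exact (Finset.sum_sdiff (fs_sub Q v α)).symm

lemma fr_add (Q : Finset (Fin n)) (A B : Fam n) : fr Q (A + B) = fr Q A + fr Q B := by
  funext v α
  simp only [Pi.add_apply]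
  unfold fr
  rw [← mul_add, ← Finset.sum_add_distrib]
  rfl

lemma fr_sub (Q : Finset (Fin n)) (A B : Fam n) : fr Q (A - B) = fr Q A - fr Q B := by
  funext v α
  simp only [Pi.sub_apply]
  unfold fr
  rw [← mul_sub, ← Finset.sum_sub_distrib]
  rfl

lemma sqn_inv_sq (n : ℕ) : (Real.sqrt n)⁻¹ * (Real.sqrt n)⁻¹ = (n : ℝ)⁻¹ := by
  rw [← mul_inv, Real.mul_self_sqrt (Nat.cast_nonneg n)]

lemma fr_dn (Q : Finset (Fin n)) (A : Fam n) (v : Fin n) (α : MI n) :
    fr Q (dn A) v α = ((fs Q v α).card : ℝ) / n * A v α := by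
  have h1 : ∀ e ∈ fs Q v α, dn A (ot v e) (α + un e) = (Real.sqrt n)⁻¹ * A v α := by
    intro e he
    rw [fs, mem_filter] at he
    obtain ⟨he1, -, he2⟩ := he
    rw [deg_zero_iff] at he2
    unfold dn
    congr 1
    rw [Finset.sum_eq_single e]
    · rw [Pi.add_apply, he2 e (st_ot v e), un_self, add_un_sub, ot_ot he1]
      norm_num
    · intro b hb hbe
      rw [Pi.add_apply, he2 b hb, un_ne hbe]
      norm_num
    · intro h
      exact absurd (st_ot v e) h
  unfold fr
  rw [Finset.sum_congr rfl h1, Finset.sum_const, nsmul_eq_mul]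
  rw [show (Real.sqrt n)⁻¹ * (((fs Q v α).card : ℝ) * ((Real.sqrt n)⁻¹ * A v α)) =
    ((Real.sqrt n)⁻¹ * (Real.sqrt n)⁻¹) * (((fs Q v α).card : ℝ) * A v α) by ring, sqn_inv_sq]
  ring

lemma card_st_le (v : Fin n) : (st v).card ≤ n := by
  have h : Set.InjOn (ot v) (st v) := fun e he e' he' h => ot_inj he he' h
  have := Finset.card_le_card_of_injOn (s := st v) (t := univ) (ot v)
    (fun _ _ => mem_univ _) h
  simpa using this

lemma sum_st_ot {M : Type*} [AddCommMonoid M] (v : Fin n) (F : Fin n → M) :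
    ∑ e ∈ st v, F (ot v e) = ∑ i ∈ univ.erase v, F i := by
  refine Finset.sum_bij (fun e _ => ot v e) ?_ ?_ ?_ ?_
  · intro e _
    exact mem_erase.2 ⟨ot_ne v e, mem_univ _⟩
  · intro e he e' he' h
    exact ot_inj he he' h
  · intro i hi
    obtain ⟨e, he, h⟩ := ot_surj (mem_erase.1 hi).1
    exact ⟨e, he, h⟩
  · intro _ _
    rfl

/-- swap of the roles of the two endpoints -/
lemma sum_swap {M : Type*} [AddCommMonoid M] (F : Fin n → Pair n → M) :
    ∑ v, ∑ e ∈ st v, F (ot v e) e = ∑ v, ∑ e ∈ st v, F v e := by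
  have h1 : ∀ G : Fin n → Pair n → M, ∑ v, ∑ e ∈ st v, G v e =
      ∑ e, ∑ v ∈ univ.filter (fun v => e ∈ st v), G v e := by
    intro G
    rw [Finset.sum_comm']
    intro x y
    simp
  rw [h1, h1 F]
  refine Finset.sum_congr rfl fun e _ => ?_
  refine Finset.sum_nbij' (fun v => ot v e) (fun v => ot v e) ?_ ?_ ?_ ?_ ?_
  · intro v _
    simpa using st_ot v e
  · intro v _
    simpa using st_ot v e
  · intro v hv
    exact ot_ot (by simpa using hv)
  · intro v hv
    exact ot_ot (by simpa using hv)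
  · intro _ _
    rfl

/-- vertices used by `α` -/
def vs (α : MI n) : Finset (Fin n) := univ.filter fun v => deg α v ≠ 0

lemma sum_deg (α : MI n) : ∑ v, deg α v = 2 * tot α := by
  unfold deg tot
  have h1 : ∑ v, ∑ e ∈ st v, α e = ∑ e, ∑ v ∈ univ.filter (fun v => e ∈ st v), α e := by
    rw [Finset.sum_comm']
    intro x y
    simp
  rw [h1, Finset.mul_sum]
  refine Finset.sum_congr rfl fun e _ => ?_
  rw [Finset.sum_const, smul_eq_mul]
  congr 1
  have h2 : (univ.filter fun v => e ∈ st v) = {e.1.1, e.1.2} := by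
    ext v
    simp only [mem_filter, mem_univ, true_and, mem_st, mem_insert, mem_singleton]
    constructor
    · rintro (h | h)
      · exact Or.inl h.symm
      · exact Or.inr h.symm
    · rintro (h | h)
      · exact Or.inl h.symm
      · exact Or.inr h.symm
  rw [h2, Finset.card_pair]
  exact ne_of_lt e.2

lemma card_vs (α : MI n) : (vs α).card ≤ 2 * tot α := by
  rw [← sum_deg]
  calc (vs α).card = ∑ v ∈ vs α, 1 := by simp
    _ ≤ ∑ v ∈ vs α, deg α v := by
        refine Finset.sum_le_sum fun v hv => ?_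
        rw [vs, mem_filter] at hv
        omega
    _ ≤ ∑ v, deg α v := sum_le_sum_of_subset (subset_univ _)

/-- the number of non-fresh edges is at most `2|α| + |Q|` -/
lemma card_nf (Q : Finset (Fin n)) (v : Fin n) (α : MI n) :
    (st v \ fs Q v α).card ≤ 2 * tot α + Q.card := by
  have h1 : (st v \ fs Q v α).card ≤ (vs α ∪ Q).card := by
    refine Finset.card_le_card_of_injOn (ot v) ?_ ?_
    · intro e he
      simp only [coe_sdiff, Set.mem_diff, mem_coe, fs, mem_filter, not_and] at he
      obtain ⟨h1, h2⟩ := he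
      simp only [coe_union, Set.mem_union, mem_coe]
      by_cases h3 : ot v e ∈ Q
      · exact Or.inr h3
      · exact Or.inl (by
          rw [vs, mem_filter]
          exact ⟨mem_univ _, h2 h1 h3⟩)
    · intro e he e' he' h
      simp only [coe_sdiff, Set.mem_diff, mem_coe] at he he'
      exact ot_inj he.1 he'.1 h
  have h2 := Finset.card_union_le (vs α) Q
  have h3 := card_vs α
  omega

lemma card_st (v : Fin n) : (st v).card + 1 = n := by
  have h := sum_st_ot (M := ℕ) v (fun _ => 1)
  simp only [Finset.sum_const, smul_eq_mul, mul_one] at h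
  rw [h, Finset.card_erase_of_mem (mem_univ v), Finset.card_univ, Fintype.card_fin]
  have : 0 < n := lt_of_le_of_lt (Nat.zero_le _) v.2
  omega

lemma card_fs (Q : Finset (Fin n)) (v : Fin n) (α : MI n) :
    n ≤ (fs Q v α).card + (2 * tot α + Q.card + 1) := by
  have h1 := card_nf Q v α
  have h2 := card_st v
  have h3 : (st v \ fs Q v α).card + (fs Q v α).card = (st v).card :=
    Finset.card_sdiff_add_card_eq_card (fs_sub Q v α)
  omega

/-- the coefficients of `U_k(W) f`: `C (k+1) = up (C k) + dn (C k) - C (k-1)` -/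
noncomputable def pv (C : ℕ → Fam n) : ℕ → Fam n
  | 0 => 0
  | k + 1 => C k

/-- the error in the path expansion -/
noncomputable def er (Q : Finset (Fin n)) (C : ℕ → Fam n) : ℕ → Fam n
  | 0 => 0
  | k + 1 => fr Q (er Q C k) - nf Q (C k) +
      fun v α => (1 - ((fs Q v α).card : ℝ) / n) * pv C k v α

/-- iterated fresh sums -/
noncomputable def fk (Q : Finset (Fin n)) (A : Fam n) : ℕ → Fam n
  | 0 => A
  | k + 1 => fr Q (fk Q A k)

theorem path_formula (Q : Finset (Fin n)) (C : ℕ → Fam n)
    (hC : ∀ k, C (k + 1) = up (C k) + dn (C k) - pv C k) (k : ℕ) :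
    fk Q (C 0) k = C k - dn (pv C k) + er Q C k := by
  induction k with
  | zero =>
    have : dn (pv C 0) = (0 : Fam n) := by
      funext v α
      simp [dn, pv]
    rw [this]
    simp [fk, er]
  | succ k ih =>
    have h1 : fk Q (C 0) (k + 1) = fr Q (C k) - fr Q (dn (pv C k)) + fr Q (er Q C k) := by
      rw [fk, ih, fr_add, fr_sub]
    have h2 := hC k
    rw [up_eq Q] at h2
    funext v α
    rw [h1, h2]
    simp only [Pi.add_apply, Pi.sub_apply, er, pv]
    rw [fr_dn]
    ring

end Vale.Agent.P146.H453
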