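import Vale.Agent.P146.R2.H453.Equiv

/-!
# P146: peeling the vertices of degree one
-/

open Finset

namespace Vale.Agent.P146.H453

variable {n : ℕ}

/-- the part with `deg α v = 1` -/
noncomputable def n1 (t : ℝ) (L : ℕ) (A : Fam n) (v : Fin n) : ℝ :=
  ∑ α ∈ (ML n L).filter (fun α => deg α v = 1), wt t α * A v α ^ 2

/-- the part with `deg α v ≥ 3` -/
noncomputable def n3 (t : ℝ) (L : ℕ) (A : Fam n) (v : Fin n) : ℝ :=
  ∑ α ∈ (ML n L).filter (fun α => 3 ≤ deg α v), wt t α * A v α ^ 2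

/-- what is not peeled -/
noncomputable def sn (t : ℝ) (L : ℕ) (j : Fin n) (A : Fam n) : ℝ :=
  nv t L A j + ∑ v ∈ univ.erase j, n3 t L A v

lemma nv_le_n13 {t : ℝ} {L : ℕ} {j : Fin n} {A : Fam n} (hA : Par j A) {v : Fin n}
    (hv : v ≠ j) : nv t L A v = n1 t L A v + n3 t L A v := by
  unfold nv n1 n3
  rw [Finset.sum_filter, Finset.sum_filter, ← Finset.sum_add_distrib]
  refine Finset.sum_congr rfl fun α _ => ?_
  by_cases h : A v α = 0
  · rw [h]
    simp
  · have h1 := hA v α h v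
    rw [if_pos rfl, if_neg hv] at h1
    by_cases h2 : deg α v = 1
    · rw [if_pos h2, if_neg (by omega), add_zero]
    · have h3 : 3 ≤ deg α v := by
        rw [Nat.even_iff] at h1
        omega
      rw [if_neg h2, if_pos h3, zero_add]

lemma ns_split {t : ℝ} {L : ℕ} {j : Fin n} {A : Fam n} (hA : Par j A) :
    ns t L A = sn t L j A + ∑ v ∈ univ.erase j, n1 t L A v := by
  unfold ns sn
  rw [← Finset.add_sum_erase _ _ (mem_univ j), add_assoc]
  congr 1
  rw [← Finset.sum_add_distrib]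
  refine Finset.sum_congr rfl fun v hv => ?_
  rw [nv_le_n13 hA (mem_erase.1 hv).1, add_comm]

lemma n1_zero (t : ℝ) (A : Fam n) (v : Fin n) : n1 t 0 A v = 0 := by
  unfold n1
  rw [Finset.filter_eq_empty_iff.2, Finset.sum_empty]
  intro α hα h
  rw [mem_ML] at hα
  have := deg_le α v
  omega

lemma peel_step {t ρ : ℝ} (ht : 0 ≤ t) (hρ : 1 ≤ ρ) {L : ℕ} {j : Fin n}
    (hn : (n : ℝ) ≤ ρ * ((n : ℝ) - (2 * L + 2))) {A : Fam n} (hA : Equi {j} A) :
    ∑ v ∈ univ.erase j, n1 t (L + 1) A v ≤ t * ρ * ns t L (fr {j} A) := by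
  set K : Fin n → MI n → ℝ := fun i β => if i ≠ j ∧ deg β i = 1 then A i β ^ 2 else 0 with hK
  have h1 := add_edge (t := t) L K
  have h2 : ∑ i, ∑ β ∈ ML n (L + 1), wt t β * (deg β i * K i β) =
      ∑ v ∈ univ.erase j, n1 t (L + 1) A v := by
    rw [← Finset.add_sum_erase _ _ (mem_univ j)]
    have h3 : ∑ β ∈ ML n (L + 1), wt t β * (deg β j * K j β) = 0 := by
      refine Finset.sum_eq_zero fun β _ => ?_
      simp [hK]
    rw [h3, zero_add]
    refine Finset.sum_congr rfl fun v hv => ?_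
    unfold n1
    rw [Finset.sum_filter]
    refine Finset.sum_congr rfl fun β _ => ?_
    simp only [hK]
    by_cases h4 : deg β v = 1
    · rw [if_pos h4, if_pos ⟨(mem_erase.1 hv).1, h4⟩, h4]
      simp
    · rw [if_neg h4, if_neg (fun h => h4 h.2)]
      simp
  rw [← h2, ← h1]
  unfold ns
  rw [Finset.mul_sum]
  refine Finset.sum_le_sum fun v _ => ?_
  unfold nv
  rw [← Finset.mul_sum, Finset.sum_comm, mul_assoc]
  refine mul_le_mul_of_nonneg_left ?_ ht
  rw [Finset.mul_sum]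
  refine Finset.sum_le_sum fun α hα => ?_
  rw [← Finset.mul_sum, ← mul_assoc, mul_comm ρ, mul_assoc]
  refine mul_le_mul_of_nonneg_left ?_ (wt_nonneg ht α)
  rw [mem_ML] at hα
  have hn0 : 0 < n := lt_of_le_of_lt (Nat.zero_le _) v.2
  have hn' : (0 : ℝ) < n := by exact_mod_cast hn0
  have h5 : ∑ e ∈ st v, K (ot v e) (α + un e) =
      ∑ e ∈ fs {j} v α, A (ot v e) (α + un e) ^ 2 := by
    unfold fs
    rw [Finset.sum_filter]
    refine Finset.sum_congr rfl fun e _ => ?_
    simp only [hK, deg_add, deg_un_of_mem (st_ot v e), mem_singleton]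
    by_cases h6 : ot v e ≠ j ∧ deg α (ot v e) = 0
    · rw [if_pos h6, if_pos ⟨h6.1, by rw [h6.2]⟩]
    · rw [if_neg h6, if_neg]
      intro h7
      exact h6 ⟨h7.1, by omega⟩
  rw [h5]
  rcases (fs {j} v α).eq_empty_or_nonempty with h6 | ⟨e₀, he₀⟩
  · rw [h6, Finset.sum_empty]
    have : 0 ≤ ρ := by linarith
    positivity
  · set a := A (ot v e₀) (α + un e₀) with ha
    have h7 : ∀ e ∈ fs {j} v α, A (ot v e) (α + un e) = a := fun e he => exch hA he he₀
    have h8 : fr {j} A v α = (Real.sqrt n)⁻¹ * ((fs {j} v α).card * a) := by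
      unfold fr
      rw [Finset.sum_congr rfl h7, Finset.sum_const, nsmul_eq_mul]
    have h9 : ∑ e ∈ fs {j} v α, A (ot v e) (α + un e) ^ 2 = (fs {j} v α).card * a ^ 2 := by
      rw [Finset.sum_congr rfl fun e he => by rw [h7 e he], Finset.sum_const, nsmul_eq_mul]
    rw [h8, h9, mul_pow, inv_pow, Real.sq_sqrt hn'.le]
    have h10 : (n : ℝ) ≤ ρ * (fs {j} v α).card := by
      have h11 := card_fs {j} v α
      rw [card_singleton] at h11
      have h12 : n ≤ (fs {j} v α).card + (2 * L + 2) := by omega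
      have h13 : (n : ℝ) ≤ (fs {j} v α).card + (2 * L + 2) := by exact_mod_cast h12
      nlinarith
    have h14 : (0 : ℝ) ≤ (fs {j} v α).card := Nat.cast_nonneg _
    have h15 : (0 : ℝ) ≤ (fs {j} v α).card * a ^ 2 := by positivity
    calc ((fs {j} v α).card : ℝ) * a ^ 2 = ((fs {j} v α).card * a ^ 2) * n / n := by
          field_simp
      _ ≤ ((fs {j} v α).card * a ^ 2) * (ρ * (fs {j} v α).card) / n := by gcongr
      _ = ρ * ((n : ℝ)⁻¹ * ((fs {j} v α).card * a) ^ 2) := by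
          field_simp

lemma fk_succ' (Q : Finset (Fin n)) (A : Fam n) (k : ℕ) : fk Q A (k + 1) = fk Q (fr Q A) k := by
  induction k with
  | zero => rfl
  | succ k ih =>
    rw [fk, ih]
    rfl

theorem peel_main {t ρ : ℝ} (ht : 0 ≤ t) (hρ : 1 ≤ ρ) {L : ℕ} {j : Fin n}
    (hn : (n : ℝ) ≤ ρ * ((n : ℝ) - (2 * L + 2))) :
    ∀ M ≤ L, ∀ A : Fam n, Par j A → Equi {j} A →
      ns t M A ≤ ∑ k ∈ range (M + 1), (t * ρ) ^ k * sn t (M - k) j (fk {j} A k) := by
  intro M
  induction M with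
  | zero =>
    intro _ A hP _
    rw [ns_split hP]
    simp [n1_zero, fk]
  | succ M ih =>
    intro hM A hP hE
    have h1 := ih (by omega) (fr {j} A) (par_fr _ hP) (equi_fr hE)
    have h2 : (n : ℝ) ≤ ρ * ((n : ℝ) - (2 * M + 2)) := by
      refine hn.trans (mul_le_mul_of_nonneg_left ?_ (by linarith))
      have h3 : (M : ℝ) ≤ L := by
        have : M ≤ L := by omega
        exact_mod_cast this
      linarith
    have h3 := peel_step ht hρ h2 hE
    rw [ns_split hP, Finset.sum_range_succ', add_comm]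
    have h4 : 0 ≤ t * ρ := mul_nonneg ht (by linarith)
    refine add_le_add ?_ (le_of_eq ?_)
    · refine h3.trans ((mul_le_mul_of_nonneg_left h1 h4).trans (le_of_eq ?_))
      rw [Finset.mul_sum]
      refine Finset.sum_congr rfl fun k _ => ?_
      rw [fk_succ', show M + 1 - (k + 1) = M - k by omega, pow_succ]
      ring
    · simp [fk]

end Vale.Agent.P146.H453
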