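import Mathlib

set_option linter.all false

/-!
# P146: from the scales `L ^ (-5/2)` to all small `s`
-/

open Filter Topology

namespace Vale.Agent.P146.R2.H453.Phys

/-- a lower bound along `s = c L ^ (-5/2)` with rate `C L ^ (-6)` gives the rate `s ^ (12/5)` -/
theorem phys_of {f : ℕ → ℝ → ℝ} (hmono : ∀ n s s', s ≤ s' → f n s' ≤ f n s) {c C : ℝ}
    (hc : 0 < c) (hC : 0 < C) {L₀ : ℕ}
    (h : ∀ L : ℕ, L₀ ≤ L → 1 ≤ L → ∀ᶠ n : ℕ in atTop,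
      Real.exp (-(C * (L : ℝ) ^ (-6 : ℝ) * (n : ℝ) ^ 2)) ≤
        f n (c * (L : ℝ) ^ (-(5 / 2) : ℝ))) :
    ∃ D δ : ℝ, 0 < D ∧ 0 < δ ∧ ∀ s : ℝ, 0 < s → s ≤ δ → ∀ᶠ n : ℕ in atTop,
      Real.exp (-(D * s ^ (12 / 5 : ℝ) * (n : ℝ) ^ 2)) ≤ f n s := by
  refine ⟨C * (2 : ℝ) ^ (6 : ℝ) * c ^ (-(12 / 5) : ℝ), c * ((L₀ : ℝ) + 2) ^ (-(5 / 2) : ℝ),
    by positivity, by positivity, fun s hs hsδ => ?_⟩
  have hcs : 0 < c / s := div_pos hc hs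
  obtain ⟨y, hy⟩ : ∃ y, y = (c / s) ^ (2 / 5 : ℝ) := ⟨_, rfl⟩
  have hy0 : 0 < y := by rw [hy]; positivity
  have hys : y ^ (-(5 / 2) : ℝ) = s / c := by
    rw [hy, ← Real.rpow_mul hcs.le]
    norm_num
    rw [Real.rpow_neg_one]
    field_simp
  have hyL : (L₀ : ℝ) + 2 ≤ y := by
    have h1 : y ^ (-(5 / 2) : ℝ) ≤ ((L₀ : ℝ) + 2) ^ (-(5 / 2) : ℝ) := by
      rw [hys, div_le_iff₀ hc]
      linarith
    by_contra hlt
    rw [not_le] at hlt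
    have h2 : ((L₀ : ℝ) + 2) ^ (-(5 / 2) : ℝ) < y ^ (-(5 / 2) : ℝ) :=
      Real.rpow_lt_rpow_of_neg hy0 hlt (by norm_num)
    linarith
  obtain ⟨L, hL⟩ : ∃ L, L = ⌊y⌋₊ := ⟨_, rfl⟩
  have hLy : (L : ℝ) ≤ y := by rw [hL]; exact Nat.floor_le hy0.le
  have hyL1 : y < (L : ℝ) + 1 := by rw [hL]; exact Nat.lt_floor_add_one y
  have hLL : L₀ + 1 < L + 1 := by
    have : (L₀ : ℝ) + 1 < (L : ℝ) := by linarith
    have h3 : L₀ + 1 < L := by exact_mod_cast this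
    omega
  have hL1 : 1 ≤ L := by omega
  have hLp : (0 : ℝ) < L := by exact_mod_cast hL1
  have hL1' : (1 : ℝ) ≤ L := by exact_mod_cast hL1
  filter_upwards [h L (by omega) hL1] with n hn
  have h4 : s ≤ c * (L : ℝ) ^ (-(5 / 2) : ℝ) := by
    have h5 : y ^ (-(5 / 2) : ℝ) ≤ (L : ℝ) ^ (-(5 / 2) : ℝ) :=
      Real.rpow_le_rpow_of_nonpos hLp hLy (by norm_num)
    rw [hys, div_le_iff₀ hc] at h5
    linarith
  refine le_trans (le_trans (Real.exp_le_exp.2 (neg_le_neg ?_)) hn) (hmono n _ _ h4)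
  refine mul_le_mul_of_nonneg_right ?_ (by positivity)
  have h6 : (L : ℝ) ^ (-6 : ℝ) ≤ (y / 2) ^ (-6 : ℝ) :=
    Real.rpow_le_rpow_of_nonpos (by positivity) (by linarith) (by norm_num)
  have h7 : (y / 2) ^ (-6 : ℝ) = (2 : ℝ) ^ (6 : ℝ) * c ^ (-(12 / 5) : ℝ) * s ^ (12 / 5 : ℝ) := by
    rw [Real.div_rpow hy0.le (by norm_num), hy, ← Real.rpow_mul hcs.le,
      Real.div_rpow hc.le hs.le, Real.rpow_neg (by norm_num : (0 : ℝ) ≤ 2) 6]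
    have e1 : (2 / 5 : ℝ) * -6 = -(12 / 5) := by norm_num
    rw [e1, Real.rpow_neg hs.le]
    have h8 : 0 < s ^ (12 / 5 : ℝ) := by positivity
    field_simp
  calc C * (L : ℝ) ^ (-6 : ℝ) ≤ C * (y / 2) ^ (-6 : ℝ) := mul_le_mul_of_nonneg_left h6 hC.le
    _ = _ := by rw [h7]; ring

end Vale.Agent.P146.R2.H453.Phys
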