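import Vale.Agent.P146.R2.H453.Peel

/-!
# P146: three edges at a vertex, and shifts of the fresh sums
-/

open Finset

namespace Vale.Agent.P146.H453

variable {n : ℕ}

lemma star1 {t : ℝ} (ht : 0 ≤ t) (L : ℕ) (v : Fin n) {K : MI n → ℝ} (hK : ∀ α, 0 ≤ K α) :
    ∑ α ∈ ML n L, wt t α * (deg α v * K α) ≤
      t * ∑ e ∈ st v, ∑ α ∈ ML n L, wt t α * K (α + un e) := by
  rw [Finset.mul_sum]
  have h1 : ∑ α ∈ ML n L, wt t α * (deg α v * K α) =
      ∑ e ∈ st v, ∑ α ∈ ML n L, wt t α * α e * K α := by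
    rw [Finset.sum_comm]
    refine Finset.sum_congr rfl fun α _ => ?_
    unfold deg
    push_cast
    rw [Finset.sum_mul, Finset.mul_sum]
    refine Finset.sum_congr rfl fun e _ => ?_
    ring
  rw [h1]
  exact Finset.sum_le_sum fun e _ => cv_le ht L e hK

lemma three {t : ℝ} (ht : 0 ≤ t) (L : ℕ) (v : Fin n) (A : Fam n) :
    n3 t L A v ≤ t ^ 3 / 6 * ∑ e₁ ∈ st v, ∑ e₂ ∈ st v, ∑ e₃ ∈ st v,
      ∑ α ∈ ML n L, wt t α * A v (α + un e₁ + un e₂ + un e₃) ^ 2 := by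
  have d1 : ∀ (α : MI n), ∀ e ∈ st v, deg (α + un e) v = deg α v + 1 := by
    intro α e he
    rw [deg_add, deg_un_of_mem he]
  -- first edge
  have h1 := star1 ht L v (K := fun α => ((deg α v - 1 : ℕ) : ℝ) * (((deg α v - 2 : ℕ) : ℝ) *
    A v α ^ 2)) (fun α => by positivity)
  -- second edge
  have h2 : ∀ e₁ : Pair n, ∑ α ∈ ML n L, wt t α * (deg α v * (((deg α v - 1 : ℕ) : ℝ) *
      A v (α + un e₁) ^ 2)) ≤ t * ∑ e ∈ st v, ∑ α ∈ ML n L, wt t α *
        (((deg (α + un e) v - 1 : ℕ) : ℝ) * A v (α + un e + un e₁) ^ 2) := fun e₁ =>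
    star1 ht L v (K := fun α => ((deg α v - 1 : ℕ) : ℝ) * A v (α + un e₁) ^ 2)
      (fun α => by positivity)
  -- third edge
  have h3 : ∀ e₁ e₂ : Pair n, ∑ α ∈ ML n L, wt t α * (deg α v * A v (α + un e₂ + un e₁) ^ 2) ≤
      t * ∑ e ∈ st v, ∑ α ∈ ML n L, wt t α * A v (α + un e + un e₂ + un e₁) ^ 2 :=
    fun e₁ e₂ => star1 ht L v (K := fun α => A v (α + un e₂ + un e₁) ^ 2)
      (fun α => by positivity)
  have h4 : 6 * n3 t L A v ≤ ∑ α ∈ ML n L, wt t α * (deg α v *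
      (((deg α v - 1 : ℕ) : ℝ) * (((deg α v - 2 : ℕ) : ℝ) * A v α ^ 2))) := by
    unfold n3
    rw [Finset.sum_filter, Finset.mul_sum]
    refine Finset.sum_le_sum fun α _ => ?_
    have hw := wt_nonneg ht α
    split_ifs with h
    · have h5 : 6 ≤ deg α v * ((deg α v - 1) * (deg α v - 2)) := by
        obtain ⟨d, hd⟩ : ∃ d, deg α v = d + 3 := ⟨deg α v - 3, by omega⟩
        rw [hd]
        have e1 : d + 3 - 1 = d + 2 := by omega
        have e2 : d + 3 - 2 = d + 1 := by omega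
        rw [e1, e2]
        nlinarith [Nat.zero_le d, Nat.zero_le (d * d), Nat.zero_le (d * d * d)]
      have h6 : (6 : ℝ) ≤ (deg α v : ℝ) * (((deg α v - 1 : ℕ) : ℝ) * ((deg α v - 2 : ℕ) : ℝ)) := by
        exact_mod_cast h5
      have h7 : 0 ≤ wt t α * A v α ^ 2 := mul_nonneg hw (sq_nonneg _)
      calc 6 * (wt t α * A v α ^ 2) ≤
            ((deg α v : ℝ) * (((deg α v - 1 : ℕ) : ℝ) * ((deg α v - 2 : ℕ) : ℝ))) *
              (wt t α * A v α ^ 2) := mul_le_mul_of_nonneg_right h6 h7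
        _ = _ := by ring
    · rw [mul_zero]
      positivity
  have h5 : ∀ e₁ ∈ st v, ∑ α ∈ ML n L, wt t α * (((deg (α + un e₁) v - 1 : ℕ) : ℝ) *
      (((deg (α + un e₁) v - 2 : ℕ) : ℝ) * A v (α + un e₁) ^ 2)) ≤
      t * ∑ e₂ ∈ st v, (t * ∑ e₃ ∈ st v, ∑ α ∈ ML n L, wt t α *
        A v (α + un e₃ + un e₂ + un e₁) ^ 2) := by
    intro e₁ he₁
    have h6 : ∑ α ∈ ML n L, wt t α * (((deg (α + un e₁) v - 1 : ℕ) : ℝ) *
      (((deg (α + un e₁) v - 2 : ℕ) : ℝ) * A v (α + un e₁) ^ 2)) =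
      ∑ α ∈ ML n L, wt t α * (deg α v * (((deg α v - 1 : ℕ) : ℝ) * A v (α + un e₁) ^ 2)) := by
      refine Finset.sum_congr rfl fun α _ => ?_
      rw [d1 α e₁ he₁, show deg α v + 1 - 1 = deg α v by omega,
        show deg α v + 1 - 2 = deg α v - 1 by omega]
    rw [h6]
    refine (h2 e₁).trans (mul_le_mul_of_nonneg_left ?_ ht)
    refine Finset.sum_le_sum fun e₂ he₂ => ?_
    have h7 : ∑ α ∈ ML n L, wt t α *
        (((deg (α + un e₂) v - 1 : ℕ) : ℝ) * A v (α + un e₂ + un e₁) ^ 2) =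
        ∑ α ∈ ML n L, wt t α * (deg α v * A v (α + un e₂ + un e₁) ^ 2) := by
      refine Finset.sum_congr rfl fun α _ => ?_
      rw [d1 α e₂ he₂, show deg α v + 1 - 1 = deg α v by omega]
    rw [h7]
    exact h3 e₁ e₂
  have h8 : 6 * n3 t L A v ≤ t ^ 3 * ∑ e₁ ∈ st v, ∑ e₂ ∈ st v, ∑ e₃ ∈ st v,
      ∑ α ∈ ML n L, wt t α * A v (α + un e₃ + un e₂ + un e₁) ^ 2 := by
    refine (h4.trans h1).trans ((mul_le_mul_of_nonneg_left
      (Finset.sum_le_sum h5) ht).trans (le_of_eq ?_))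
    simp only [Finset.mul_sum]
    refine Finset.sum_congr rfl fun e₁ _ => Finset.sum_congr rfl fun e₂ _ =>
      Finset.sum_congr rfl fun e₃ _ => Finset.sum_congr rfl fun α _ => ?_
    ring
  have h9 : ∀ (α : MI n) (e₁ e₂ e₃ : Pair n),
      α + un e₃ + un e₂ + un e₁ = α + un e₁ + un e₂ + un e₃ := by
    intro α e₁ e₂ e₃
    abel
  simp only [h9] at h8
  linarith

/-- shift of a family by a multi-index -/
def sh (γ : MI n) (A : Fam n) : Fam n := fun i α => A i (α + γ)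

lemma fs_shift (Q : Finset (Fin n)) (v : Fin n) (α γ : MI n) :
    fs Q v (α + γ) = fs (Q ∪ vs γ) v α := by
  unfold fs
  refine Finset.filter_congr fun e _ => ?_
  rw [deg_add, mem_union, vs, mem_filter]
  constructor
  · rintro ⟨h1, h2⟩
    refine ⟨?_, by omega⟩
    rintro (h3 | h3)
    · exact h1 h3
    · exact h3.2 (by omega)
  · rintro ⟨h1, h2⟩
    rw [not_or] at h1
    refine ⟨h1.1, ?_⟩
    have h3 : deg γ (ot v e) = 0 := by
      by_contra h4
      exact h1.2 ⟨mem_univ _, h4⟩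
    omega

lemma fr_shift (Q : Finset (Fin n)) (γ : MI n) (A : Fam n) :
    sh γ (fr Q A) = fr (Q ∪ vs γ) (sh γ A) := by
  funext v α
  unfold sh fr
  rw [fs_shift]
  congr 1
  refine Finset.sum_congr rfl fun e _ => ?_
  rw [add_right_comm]

lemma fk_shift (Q : Finset (Fin n)) (γ : MI n) (A : Fam n) (k : ℕ) :
    sh γ (fk Q A k) = fk (Q ∪ vs γ) (sh γ A) k := by
  induction k with
  | zero => rfl
  | succ k ih => rw [fk, fr_shift, ih, fk]

lemma card_vs3 {v : Fin n} {e₁ e₂ e₃ : Pair n} (h₁ : e₁ ∈ st v) (h₂ : e₂ ∈ st v)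
    (h₃ : e₃ ∈ st v) (j : Fin n) : (({j} : Finset (Fin n)) ∪ vs (un e₁ + un e₂ + un e₃)).card ≤ 5 := by
  have h : vs (un e₁ + un e₂ + un e₃) ⊆ {v, ot v e₁, ot v e₂, ot v e₃} := by
    intro u hu
    rw [vs, mem_filter, deg_add, deg_add, deg_un h₁, deg_un h₂, deg_un h₃] at hu
    simp only [mem_insert, mem_singleton]
    by_contra hcon
    push Not at hcon
    obtain ⟨c1, c2, c3, c4⟩ := hcon
    apply hu.2
    rw [if_neg c1, if_neg c2, if_neg c3, if_neg c4]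
  have h1 := (Finset.card_le_card h).trans Finset.card_le_four
  have h2 := Finset.card_union_le ({j} : Finset (Fin n)) (vs (un e₁ + un e₂ + un e₃))
  rw [card_singleton] at h2
  omega

end Vale.Agent.P146.H453
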